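import Vale.Agent.Lib.P333.Defs

namespace Vale.Agent.Lib.P333

variable {α : Type*} [DecidableEq α]

lemma ov_le_left (s t : List α) : ov s t ≤ s.length :=
  (Nat.findGreatest_le _).trans (min_le_left _ _)

lemma ov_le_right (s t : List α) : ov s t ≤ t.length :=
  (Nat.findGreatest_le _).trans (min_le_right _ _)

lemma ov_spec (s t : List α) : s.drop (s.length - ov s t) = t.take (ov s t) := by
  have h0 : (fun k => s.drop (s.length - k) = t.take k) 0 := by simp
  exact Nat.findGreatest_spec (P := fun k => s.drop (s.length - k) = t.take k)
    (Nat.zero_le _) h0

lemma le_ov {s t : List α} {k : ℕ} (h1 : k ≤ s.length) (h2 : k ≤ t.length)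
    (h : s.drop (s.length - k) = t.take k) : k ≤ ov s t :=
  Nat.le_findGreatest (P := fun k => s.drop (s.length - k) = t.take k) (le_min h1 h2) h

lemma merge_length (s t : List α) : (merge s t).length + ov s t = s.length + t.length := by
  have := ov_le_right s t
  simp only [merge, List.length_append, List.length_drop]
  omega

lemma merge_eq (s t : List α) : merge s t = s.take (s.length - ov s t) ++ t := by
  have h := ov_spec s t
  unfold merge
  calc s ++ t.drop (ov s t)
      = (s.take (s.length - ov s t) ++ s.drop (s.length - ov s t)) ++ t.drop (ov s t) := by
        rw [List.take_append_drop]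
    _ = s.take (s.length - ov s t) ++ (t.take (ov s t) ++ t.drop (ov s t)) := by
        rw [h, List.append_assoc]
    _ = s.take (s.length - ov s t) ++ t := by rw [List.take_append_drop]

lemma prefix_merge (s t : List α) : s <+: merge s t := List.prefix_append _ _

lemma suffix_merge (s t : List α) : t <:+ merge s t := by
  rw [merge_eq]; exact List.suffix_append _ _

lemma ov_merge_right_ge (s t u : List α) : ov t u ≤ ov (merge s t) u := by
  have h := ov_spec t u
  have h1 := ov_le_left t u
  have h2 := ov_le_right t u
  apply le_ov
  · rw [merge_eq]; simp only [List.length_append]; omega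
  · exact h2
  · rw [merge_eq, List.length_append, ← h]
    rw [List.drop_append]
    have : (List.take (s.length - ov s t) s).length + t.length - ov t u
        - (List.take (s.length - ov s t) s).length = t.length - ov t u := by omega
    rw [this]
    have h3 : List.drop ((List.take (s.length - ov s t) s).length + t.length - ov t u)
        (List.take (s.length - ov s t) s) = [] := by
      apply List.drop_of_length_le; omega
    rw [h3]; simp

lemma ov_merge_left_ge (s t u : List α) : ov u s ≤ ov u (merge s t) := by
  have h := ov_spec u s
  have h1 := ov_le_left u s
  have h2 := ov_le_right u s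
  apply le_ov h1
  · simp only [merge, List.length_append]; omega
  · rw [h]; unfold merge
    rw [List.take_append_of_le_length h2]

/-- The Monge inequality for overlaps. -/
lemma monge (a b c d : List α) (h1 : ov a d ≤ ov a b) (h2 : ov c b ≤ ov a b) :
    ov a d + ov c b ≤ ov a b + ov c d := by
  by_cases hle : ov a d + ov c b ≤ ov a b
  · omega
  rw [not_le] at hle
  have e1 := ov_spec a b
  have e2 := ov_spec a d
  have e3 := ov_spec c b
  have l1 := ov_le_left a b
  have l2 := ov_le_right a b
  have l3 := ov_le_left a d
  have l4 := ov_le_right a d
  have l5 := ov_le_left c b
  have l6 := ov_le_right c b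
  set k := ov a b with hk
  set i := ov a d with hi
  set j := ov c b with hj
  have key : i + j - k ≤ ov c d := by
    apply le_ov
    · omega
    · omega
    · -- c.drop (|c| - r) = d.take r
      have hc : c.drop (c.length - (i + j - k)) = (b.take j).drop (k - i) := by
        rw [← e3, List.drop_drop]
        congr 1; omega
      have hd : d.take (i + j - k) = ((b.take k).drop (k - i)).take (i + j - k) := by
        rw [← e1, List.drop_drop]
        have : a.length - k + (k - i) = a.length - i := by omega
        rw [this, e2, List.take_take]
        congr 1; omega
      rw [hc, hd, List.drop_take, List.drop_take, List.take_take]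
      congr 1; omega
  omega

end Vale.Agent.Lib.P333
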