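import Vale.Agent.Lib.P333.Trace

namespace Vale.Agent.Lib.P333

/-- Certificate trees: a leaf carries a multiplier and an encoded list of facts; the other two
constructors form the list of subtrees of a branching node. -/
inductive CTree where
  | leaf (k : ℕ) (c : ℕ) : CTree
  | nil : CTree
  | cons (t ts : CTree) : CTree

/-- Case distinction on a truth value: `cnd c x y` is `x` if `c` is true and `y` otherwise. -/
noncomputable def cnd {α : Type} (c : Bool) (x y : α) : α :=
  Bool.rec (motive := fun _ => α) y x c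

/-- Bit `i` of `V`. -/
def bitN (V i : ℕ) : Bool := Nat.beq (Nat.land (Nat.shiftRight V i) 1) 1

/-- The bit mask of the numbers below `n` that satisfy `f`. -/
noncomputable def maskLoop (f : ℕ → Bool) (n : ℕ) : ℕ :=
  Nat.rec (motive := fun _ => ℕ) 0
    (fun k acc => cnd (f k) (Nat.lor acc (Nat.shiftLeft 1 k)) acc) n

/-- Connection of `x` to `y` after adding the edge (p, q) to a state with connection mask `C`. -/
noncomputable def conn1 (m p q C x y : ℕ) : Bool :=
  cnd (bitN C (Nat.add (Nat.mul x m) y)) true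
    (cnd (cnd (Nat.beq x p) true (bitN C (Nat.add (Nat.mul x m) p)))
      (cnd (Nat.beq y q) true (bitN C (Nat.add (Nat.mul q m) y))) false)

/-- The connection mask after adding the edge (p, q). -/
noncomputable def cstep (m p q C : ℕ) : ℕ :=
  maskLoop (fun i => conn1 m p q C (Nat.div i m) (Nat.mod i m)) (Nat.mul m m)

/-- Validity of the pair (p, q) in a state with masks `O`, `I`, `C`. -/
noncomputable def validM (m O I C p q : ℕ) : Bool :=
  cnd (Nat.beq p q) false (cnd (bitN O p) false (cnd (bitN I q) false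
    (cnd (bitN C (Nat.add (Nat.mul q m) p)) false true)))

/-- Validity of the pair (x, y) in the state on top of the stack `S`. -/
noncomputable def validL (m : ℕ) (S : List (ℕ × ℕ × ℕ × ℕ × ℕ)) (O I x y : ℕ) : Bool :=
  List.rec (motive := fun _ => Bool) false
    (fun e _ _ => cnd (Nat.beq x y) false (cnd (bitN O x) false (cnd (bitN I y) false
      (cnd (conn1 m e.1 e.2.1 e.2.2.2.2 y x) false true)))) S

/-- Code of the atom `W p q`. -/
def cw (p q : ℕ) : ℕ := Nat.add (Nat.add 17 (Nat.mul 16 p)) q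

/-- Code of the atom `len a`. -/
def cl (a : ℕ) : ℕ := Nat.succ a

/-- The packed unit vector of an atom code. -/
def pe (c : ℕ) : ℕ := Nat.pow 65536 c

/-- The fact `W a b ≤ len a` (kind `0`) or `W a b ≤ len b` (kind `1`). -/
noncomputable def factLen (k a b : ℕ) : Option (ℕ × ℕ) :=
  cnd (Nat.beq a b) none (some (pe (cw a b), pe (cl (cnd (Nat.beq k 0) a b))))

/-- The fact `W a b ≤ g` for a pair that is valid in the current state. -/
noncomputable def factNxt (m : ℕ) (S : List (ℕ × ℕ × ℕ × ℕ × ℕ)) (O I a b : ℕ) :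
    Option (ℕ × ℕ) :=
  cnd (validL m S O I a b) (some (pe (cw a b), 1)) none

/-- The fact that the edge of the stack entry `e` dominates the pair (a, b), valid when that
edge was chosen. -/
noncomputable def factGrd (m : ℕ) (e : ℕ × ℕ × ℕ × ℕ × ℕ) (a b : ℕ) : Option (ℕ × ℕ) :=
  cnd (validM m e.2.2.1 e.2.2.2.1 e.2.2.2.2 a b) (some (pe (cw a b), pe (cw e.1 e.2.1))) none

/-- The Monge inequality for the edge of the stack entry `e` and the pair (a, b). -/
noncomputable def factMon (m : ℕ) (e : ℕ × ℕ × ℕ × ℕ × ℕ) (a b : ℕ) : Option (ℕ × ℕ) :=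
  cnd (validM m e.2.2.1 e.2.2.2.1 e.2.2.2.2 e.1 b)
    (cnd (validM m e.2.2.1 e.2.2.2.1 e.2.2.2.2 a e.2.1)
      (some (Nat.add (pe (cw e.1 b)) (pe (cw a e.2.1)), Nat.add (pe (cw e.1 e.2.1)) (pe (cw a b))))
      none)
    none

/-- The stack without its first `c` entries. -/
noncomputable def dropN (c : ℕ) (S : List (ℕ × ℕ × ℕ × ℕ × ℕ)) : List (ℕ × ℕ × ℕ × ℕ × ℕ) :=
  Nat.rec (motive := fun _ => List (ℕ × ℕ × ℕ × ℕ × ℕ) → List (ℕ × ℕ × ℕ × ℕ × ℕ)) (fun l => l)
    (fun _ ih l => ih (List.rec (motive := fun _ => List (ℕ × ℕ × ℕ × ℕ × ℕ)) [] (fun _ t _ => t) l))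
    c S

/-- The facts of kinds `3` and `4`, which refer to the stack entry at position `c`. -/
noncomputable def factDyn (m : ℕ) (S : List (ℕ × ℕ × ℕ × ℕ × ℕ)) (k a b c : ℕ) :
    Option (ℕ × ℕ) :=
  List.rec (motive := fun _ => Option (ℕ × ℕ)) none
    (fun e _ _ => cnd (Nat.beq k 3) (factGrd m e a b) (factMon m e a b)) (dropN c S)

/-- The two sides (as packed vectors) of the inequality expressed by a fact of kind `k`
with fields `a b c`, if the fact is justified. -/
noncomputable def factNum (m : ℕ) (S : List (ℕ × ℕ × ℕ × ℕ × ℕ)) (O I k a b c : ℕ) :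
    Option (ℕ × ℕ) :=
  cnd (Nat.beq k 2)
    (some (Nat.add (pe (cw a b)) (pe (cw b c)), Nat.add (pe (cl b)) (pe (cw a c))))
    (cnd (Nat.blt a m)
      (cnd (Nat.blt b m)
        (cnd (Nat.blt k 2) (factLen k a b)
          (cnd (Nat.beq k 5) (factNxt m S O I a b) (factDyn m S k a b c)))
        none)
      none)

/-- Decoding of a fact from a single number. -/
noncomputable def factN (m : ℕ) (S : List (ℕ × ℕ × ℕ × ℕ × ℕ)) (O I n : ℕ) : Option (ℕ × ℕ) :=
  factNum m S O I (Nat.mod n 8) (Nat.mod (Nat.div n 8) 16) (Nat.mod (Nat.div n 128) 16)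
    (Nat.mod (Nat.div n 2048) 16)

/-- Sum of two pairs of packed vectors. -/
noncomputable def comb (x y : Option (ℕ × ℕ)) : Option (ℕ × ℕ) :=
  Option.rec (motive := fun _ => Option (ℕ × ℕ)) none
    (fun lr => Option.rec (motive := fun _ => Option (ℕ × ℕ)) none
      (fun LR => some (Nat.add lr.1 LR.1, Nat.add lr.2 LR.2)) y) x

/-- Accumulated sides of an encoded list of facts. -/
noncomputable def accLR (m : ℕ) (S : List (ℕ × ℕ × ℕ × ℕ × ℕ)) (O I : ℕ) (fuel : ℕ) :
    ℕ → Option (ℕ × ℕ) :=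
  Nat.rec (motive := fun _ => ℕ → Option (ℕ × ℕ)) (fun _ => none)
    (fun _ ih N => cnd (Nat.beq N 0) (some (0, 0))
      (comb (factN m S O I (Nat.mod N 65536)) (ih (Nat.div N 65536)))) fuel

/-- Check of a leaf certificate. -/
noncomputable def checkCert (m gL : ℕ) (S : List (ℕ × ℕ × ℕ × ℕ × ℕ)) (O I gR k N : ℕ) : Bool :=
  Option.rec (motive := fun _ => Bool) false
    (fun LR => cnd (Nat.blt 0 k) (cnd (Nat.blt k 256)
      (Nat.beq (Nat.add (Nat.mul k gL) LR.2) (Nat.add (Nat.mul k gR) LR.1)) false) false)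
    (accLR m S O I 64 N)

/-- Check of a certificate tree in the state described by the stack `S` and the masks
`O`, `I`, `C`, from the pair with index `i` onwards. -/
noncomputable def chk (m gL : ℕ) (t : CTree) :
    List (ℕ × ℕ × ℕ × ℕ × ℕ) → ℕ → ℕ → ℕ → ℕ → ℕ → ℕ → Bool :=
  CTree.rec (motive := fun _ => List (ℕ × ℕ × ℕ × ℕ × ℕ) → ℕ → ℕ → ℕ → ℕ → ℕ → ℕ → Bool)
    (fun k N S d O I _ gR _ => cnd (Nat.blt (Nat.succ d) m) (checkCert m gL S O I gR k N) false)
    (fun _ d _ _ _ _ i => cnd (Nat.ble (Nat.mul m m) i) (Nat.blt (Nat.succ d) m) false)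
    (fun _ _ iht ihts S d O I C gR i =>
      cnd (cnd (validM m O I C (Nat.div i m) (Nat.mod i m))
          (iht ((Nat.div i m, Nat.mod i m, O, I, C) :: S) (Nat.succ d)
            (Nat.lor O (Nat.shiftLeft 1 (Nat.div i m))) (Nat.lor I (Nat.shiftLeft 1 (Nat.mod i m)))
            (cstep m (Nat.div i m) (Nat.mod i m) C)
            (Nat.add (pe (cw (Nat.div i m) (Nat.mod i m))) gR) 0)
          true)
        (ihts S d O I C gR (Nat.succ i)) false) t

/-- Packed vector of a list of atom codes. -/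
def pk (l : List ℕ) : ℕ := (l.map fun i => 65536 ^ i).sum

/-- Atoms of twice the overlaps along the reference order. -/
def goalL (m : ℕ) : List ℕ :=
  (List.range (m - 1)).flatMap fun j => [cw j (j + 1), cw j (j + 1)]

/-- Atoms of the bound for the next edge and of the total length. -/
def goalR0 (m : ℕ) : List ℕ := 0 :: (List.range m).map cl

end Vale.Agent.Lib.P333
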