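import Vale.Agent.Lib.P333.Cert

namespace Vale.Agent.Lib.P333

lemma cnd_eq {α : Type} (c : Bool) (x y : α) : cnd c x y = bif c then x else y := by
  cases c <;> rfl

lemma conn1_eq (m p q C x y : ℕ) :
    conn1 m p q C x y = (bif bitN C (Nat.add (Nat.mul x m) y) then true else
      (bif (bif Nat.beq x p then true else bitN C (Nat.add (Nat.mul x m) p)) then
        (bif Nat.beq y q then true else bitN C (Nat.add (Nat.mul q m) y)) else false)) := by
  simp only [conn1, cnd_eq]

lemma validM_eq (m O I C p q : ℕ) :
    validM m O I C p q = (bif Nat.beq p q then false else bif bitN O p then false else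
      bif bitN I q then false else bif bitN C (Nat.add (Nat.mul q m) p) then false else true) := by
  simp only [validM, cnd_eq]

lemma validL_nil (m O I x y : ℕ) : validL m [] O I x y = false := rfl

lemma validL_cons (m : ℕ) (e : ℕ × ℕ × ℕ × ℕ × ℕ) (S : List (ℕ × ℕ × ℕ × ℕ × ℕ)) (O I x y : ℕ) :
    validL m (e :: S) O I x y = (bif Nat.beq x y then false else bif bitN O x then false else
      bif bitN I y then false else bif conn1 m e.1 e.2.1 e.2.2.2.2 y x then false else true) := by
  show cnd _ _ _ = _
  simp only [cnd_eq]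

lemma factLen_eq (k a b : ℕ) :
    factLen k a b = (bif Nat.beq a b then none else
      some (pe (cw a b), pe (cl (bif Nat.beq k 0 then a else b)))) := by
  simp only [factLen, cnd_eq]

lemma factNxt_eq (m : ℕ) (S : List (ℕ × ℕ × ℕ × ℕ × ℕ)) (O I a b : ℕ) :
    factNxt m S O I a b = (bif validL m S O I a b then some (pe (cw a b), 1) else none) := by
  simp only [factNxt, cnd_eq]

lemma factGrd_eq (m : ℕ) (e : ℕ × ℕ × ℕ × ℕ × ℕ) (a b : ℕ) :
    factGrd m e a b = (bif validM m e.2.2.1 e.2.2.2.1 e.2.2.2.2 a b then
      some (pe (cw a b), pe (cw e.1 e.2.1)) else none) := by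
  simp only [factGrd, cnd_eq]

lemma factMon_eq (m : ℕ) (e : ℕ × ℕ × ℕ × ℕ × ℕ) (a b : ℕ) :
    factMon m e a b = (bif validM m e.2.2.1 e.2.2.2.1 e.2.2.2.2 e.1 b then
      (bif validM m e.2.2.1 e.2.2.2.1 e.2.2.2.2 a e.2.1 then
        some (Nat.add (pe (cw e.1 b)) (pe (cw a e.2.1)), Nat.add (pe (cw e.1 e.2.1)) (pe (cw a b)))
      else none)
    else none) := by
  simp only [factMon, cnd_eq]

lemma dropN_eq (c : ℕ) : ∀ S : List (ℕ × ℕ × ℕ × ℕ × ℕ), dropN c S = S.drop c := by
  induction c with
  | zero => intro S; rfl
  | succ c ih =>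
    intro S
    cases S with
    | nil =>
      have e : dropN (c + 1) [] = dropN c [] := rfl
      rw [e, ih]
      simp
    | cons x S =>
      have e : dropN (c + 1) (x :: S) = dropN c S := rfl
      rw [e, ih]
      rfl

lemma factDyn_nil (m : ℕ) (S : List (ℕ × ℕ × ℕ × ℕ × ℕ)) (k a b c : ℕ) (h : S.drop c = []) :
    factDyn m S k a b c = none := by
  unfold factDyn
  rw [dropN_eq, h]

lemma factDyn_cons (m : ℕ) (S : List (ℕ × ℕ × ℕ × ℕ × ℕ)) (k a b c : ℕ)
    (e : ℕ × ℕ × ℕ × ℕ × ℕ) (S' : List (ℕ × ℕ × ℕ × ℕ × ℕ)) (h : S.drop c = e :: S') :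
    factDyn m S k a b c = (bif Nat.beq k 3 then factGrd m e a b else factMon m e a b) := by
  unfold factDyn
  rw [dropN_eq, h]
  show cnd _ _ _ = _
  rw [cnd_eq]

lemma factNum_eq (m : ℕ) (S : List (ℕ × ℕ × ℕ × ℕ × ℕ)) (O I k a b c : ℕ) :
    factNum m S O I k a b c = (bif Nat.beq k 2 then
      some (Nat.add (pe (cw a b)) (pe (cw b c)), Nat.add (pe (cl b)) (pe (cw a c)))
    else bif Nat.blt a m then
      (bif Nat.blt b m then
        (bif Nat.blt k 2 then factLen k a b
        else bif Nat.beq k 5 then factNxt m S O I a b else factDyn m S k a b c)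
      else none)
    else none) := by
  simp only [factNum, cnd_eq]

lemma comb_none (y : Option (ℕ × ℕ)) : comb none y = none := rfl

lemma comb_some_none (lr : ℕ × ℕ) : comb (some lr) none = none := rfl

lemma comb_some_some (lr LR : ℕ × ℕ) :
    comb (some lr) (some LR) = some (Nat.add lr.1 LR.1, Nat.add lr.2 LR.2) := rfl

lemma checkCert_none (m gL : ℕ) (S : List (ℕ × ℕ × ℕ × ℕ × ℕ)) (O I gR k N : ℕ)
    (h : accLR m S O I 64 N = none) : checkCert m gL S O I gR k N = false := by
  unfold checkCert
  rw [h]

lemma checkCert_some (m gL : ℕ) (S : List (ℕ × ℕ × ℕ × ℕ × ℕ)) (O I gR k N : ℕ) (LR : ℕ × ℕ)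
    (h : accLR m S O I 64 N = some LR) :
    checkCert m gL S O I gR k N = (Nat.blt 0 k && (Nat.blt k 256 &&
      Nat.beq (Nat.add (Nat.mul k gL) LR.2) (Nat.add (Nat.mul k gR) LR.1))) := by
  unfold checkCert
  rw [h]
  show cnd _ (cnd _ _ _) _ = _
  rw [cnd_eq, cnd_eq]
  cases Nat.blt 0 k <;> cases Nat.blt k 256 <;> rfl

lemma chk_leaf (m gL k N : ℕ) (S : List (ℕ × ℕ × ℕ × ℕ × ℕ)) (d O I C gR i : ℕ) :
    chk m gL (CTree.leaf k N) S d O I C gR i =
      (Nat.blt (Nat.succ d) m && checkCert m gL S O I gR k N) := by
  show cnd _ _ _ = _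
  rw [cnd_eq]
  cases Nat.blt (Nat.succ d) m <;> rfl

lemma chk_nil (m gL : ℕ) (S : List (ℕ × ℕ × ℕ × ℕ × ℕ)) (d O I C gR i : ℕ) :
    chk m gL CTree.nil S d O I C gR i =
      (Nat.ble (Nat.mul m m) i && Nat.blt (Nat.succ d) m) := by
  show cnd _ _ _ = _
  rw [cnd_eq]
  cases Nat.ble (Nat.mul m m) i <;> rfl

lemma chk_cons (m gL : ℕ) (t ts : CTree) (S : List (ℕ × ℕ × ℕ × ℕ × ℕ)) (d O I C gR i : ℕ) :
    chk m gL (CTree.cons t ts) S d O I C gR i =
      ((bif validM m O I C (Nat.div i m) (Nat.mod i m) then
        chk m gL t ((Nat.div i m, Nat.mod i m, O, I, C) :: S) (Nat.succ d)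
          (Nat.lor O (Nat.shiftLeft 1 (Nat.div i m))) (Nat.lor I (Nat.shiftLeft 1 (Nat.mod i m)))
          (cstep m (Nat.div i m) (Nat.mod i m) C)
          (Nat.add (pe (cw (Nat.div i m) (Nat.mod i m))) gR) 0
      else true) && chk m gL ts S d O I C gR (Nat.succ i)) := by
  have key : ∀ (a b : Bool), cnd a b false = (a && b) := by intro a b; cases a <;> rfl
  have key2 : ∀ (a b : Bool), cnd a b true = (bif a then b else true) := by
    intro a b; cases a <;> rfl
  rw [← key2, ← key]
  rfl

lemma bitN_eq (V i : ℕ) : bitN V i = V.testBit i := by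
  unfold bitN
  rw [Nat.testBit_eq_decide_div_mod_eq]
  have e1 : Nat.shiftRight V i = V >>> i := rfl
  have e2 : ∀ a b : ℕ, Nat.land a b = a &&& b := fun _ _ => rfl
  rw [e1, e2, Nat.and_one_is_mod, Nat.shiftRight_eq_div_pow]
  rcases Nat.mod_two_eq_zero_or_one (V / 2 ^ i) with h | h <;> rw [h] <;> rfl

lemma maskLoop_zero (f : ℕ → Bool) : maskLoop f 0 = 0 := rfl

lemma maskLoop_succ (f : ℕ → Bool) (n : ℕ) :
    maskLoop f (n + 1) = bif f n then maskLoop f n ||| 1 <<< n else maskLoop f n :=
  cnd_eq (f n) (maskLoop f n ||| 1 <<< n) (maskLoop f n)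

lemma testBit_maskLoop (f : ℕ → Bool) (n i : ℕ) :
    (maskLoop f n).testBit i = (decide (i < n) && f i) := by
  induction n with
  | zero => simp [maskLoop_zero]
  | succ n ih =>
    rw [maskLoop_succ]
    cases hf : f n with
    | true =>
      simp only [cond_true, Nat.testBit_or, ih, Nat.one_shiftLeft, Nat.testBit_two_pow]
      by_cases h : n = i
      · subst h; simp [hf]
      · have : (i < n + 1) ↔ (i < n) := by omega
        simp [h, this]
    | false =>
      simp only [cond_false, ih]
      by_cases h : n = i
      · subst h; simp [hf]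
      · have : (i < n + 1) ↔ (i < n) := by omega
        simp [this]

variable {m : ℕ}

/-- The mask of the starting points of the edges. -/
def om : List (Fin m × Fin m) → ℕ
  | [] => 0
  | e :: E => Nat.lor (om E) (Nat.shiftLeft 1 e.1.val)

/-- The mask of the end points of the edges. -/
def im : List (Fin m × Fin m) → ℕ
  | [] => 0
  | e :: E => Nat.lor (im E) (Nat.shiftLeft 1 e.2.val)

/-- The connection mask of a list of edges. -/
noncomputable def cm : List (Fin m × Fin m) → ℕ
  | [] => 0
  | e :: E => cstep m e.1.val e.2.val (cm E)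

/-- The stack of the checker that corresponds to a list of edges. -/
noncomputable def stk : List (Fin m × Fin m) → List (ℕ × ℕ × ℕ × ℕ × ℕ)
  | [] => []
  | e :: E => (e.1.val, e.2.val, om E, im E, cm E) :: stk E

lemma beq_val (x y : Fin m) : Nat.beq x.val y.val = (x == y) := by
  by_cases h : x = y
  · subst h; simp
  · have h' : x.val ≠ y.val := fun e => h (Fin.ext e)
    have : Nat.beq x.val y.val = false := by
      cases hb : Nat.beq x.val y.val with
      | true => exact absurd (Nat.eq_of_beq_eq_true hb) h'
      | false => rfl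
    rw [this]; simp [h]

lemma testBit_om (E : List (Fin m × Fin m)) (p : Fin m) :
    (om E).testBit p.val = !(E.all fun e => e.1 != p) := by
  induction E with
  | nil => simp [om]
  | cons e E ih =>
    have e1 : om (e :: E) = om E ||| 1 <<< e.1.val := rfl
    rw [e1, Nat.testBit_or, ih, Nat.one_shiftLeft, Nat.testBit_two_pow, List.all_cons]
    by_cases h : e.1 = p
    · simp [h]
    · have h' : e.1.val ≠ p.val := fun e' => h (Fin.ext e')
      simp [h, h']

lemma testBit_im (E : List (Fin m × Fin m)) (q : Fin m) :
    (im E).testBit q.val = !(E.all fun e => e.2 != q) := by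
  induction E with
  | nil => simp [im]
  | cons e E ih =>
    have e1 : im (e :: E) = im E ||| 1 <<< e.2.val := rfl
    rw [e1, Nat.testBit_or, ih, Nat.one_shiftLeft, Nat.testBit_two_pow, List.all_cons]
    by_cases h : e.2 = q
    · simp [h]
    · have h' : e.2.val ≠ q.val := fun e' => h (Fin.ext e')
      simp [h, h']

lemma idx_div (x y : Fin m) : Nat.div (x.val * m + y.val) m = x.val := by
  have hm : 0 < m := x.pos
  show (x.val * m + y.val) / m = x.val
  rw [Nat.add_comm, Nat.add_mul_div_right _ _ hm, Nat.div_eq_of_lt y.isLt, zero_add]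

lemma idx_mod (x y : Fin m) : Nat.mod (x.val * m + y.val) m = y.val := by
  show (x.val * m + y.val) % m = y.val
  rw [Nat.add_comm, Nat.add_mul_mod_self_right, Nat.mod_eq_of_lt y.isLt]

lemma idx_lt (x y : Fin m) : x.val * m + y.val < m * m := by
  have h1 := x.isLt
  have h2 := y.isLt
  have h3 : (x.val + 1) * m ≤ m * m := Nat.mul_le_mul_right m h1
  rw [Nat.succ_mul] at h3
  omega

lemma bool_conn (a b c d f : Bool) :
    (bif a then true else (bif (bif b then true else c) then (bif d then true else f)
      else false)) = (a || ((b || c) && (d || f))) := by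
  cases a <;> cases b <;> cases c <;> cases d <;> cases f <;> rfl

lemma conn1_spec (E : List (Fin m × Fin m))
    (ih : ∀ x y : Fin m, (cm E).testBit (x.val * m + y.val) = conn E x y)
    (e : Fin m × Fin m) (x y : Fin m) :
    conn1 m e.1.val e.2.val (cm E) x.val y.val = conn (e :: E) x y := by
  rw [conn1_eq]
  simp only [bitN_eq]
  have a1 : Nat.add (Nat.mul x.val m) y.val = x.val * m + y.val := rfl
  have a2 : Nat.add (Nat.mul x.val m) e.1.val = x.val * m + e.1.val := rfl
  have a3 : Nat.add (Nat.mul e.2.val m) y.val = e.2.val * m + y.val := rfl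
  rw [a1, a2, a3, ih, ih, ih, beq_val, beq_val, bool_conn]
  rfl

lemma testBit_cm (E : List (Fin m × Fin m)) :
    ∀ x y : Fin m, (cm E).testBit (x.val * m + y.val) = conn E x y := by
  induction E with
  | nil => intro x y; simp [cm, conn]
  | cons e E ih =>
    intro x y
    have e1 : cm (e :: E) = maskLoop
        (fun i => conn1 m e.1.val e.2.val (cm E) (Nat.div i m) (Nat.mod i m)) (Nat.mul m m) := rfl
    rw [e1, testBit_maskLoop, idx_div, idx_mod, conn1_spec E ih]
    have : x.val * m + y.val < m * m := idx_lt x y
    simp [this]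

lemma bool_valid (d a b c : Bool) :
    (bif d then false else bif !a then false else bif !b then false else
      bif c then false else true) = ((!d) && a && b && !c) := by
  cases d <;> cases a <;> cases b <;> cases c <;> rfl

lemma validM_spec (E : List (Fin m × Fin m)) (p q : Fin m) :
    validM m (om E) (im E) (cm E) p.val q.val = valid E p q := by
  rw [validM_eq]
  unfold valid
  simp only [bitN_eq]
  have a1 : Nat.add (Nat.mul q.val m) p.val = q.val * m + p.val := rfl
  rw [a1, testBit_cm, testBit_om, testBit_im, beq_val, bool_valid]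
  simp [bne]

lemma validL_spec (E : List (Fin m × Fin m)) (x y : Fin m)
    (h : validL m (stk E) (om E) (im E) x.val y.val = true) : valid E x y = true := by
  cases E with
  | nil =>
    have e0 : validL m (stk ([] : List (Fin m × Fin m))) (om ([] : List (Fin m × Fin m)))
        (im ([] : List (Fin m × Fin m))) x.val y.val = false := rfl
    rw [e0] at h
    exact absurd h (by simp)
  | cons e E =>
    have e1 : validL m (stk (e :: E)) (om (e :: E)) (im (e :: E)) x.val y.val =
        (bif Nat.beq x.val y.val then false else bif bitN (om (e :: E)) x.val then false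
          else bif bitN (im (e :: E)) y.val then false
          else bif conn1 m e.1.val e.2.val (cm E) y.val x.val then false else true) :=
      validL_cons m _ _ _ _ _ _
    rw [e1, conn1_spec E (testBit_cm E)] at h
    simp only [bitN_eq] at h
    rw [testBit_om, testBit_im, beq_val, bool_valid] at h
    unfold valid
    rw [← h]
    simp [bne]

lemma stk_drop (j : ℕ) : ∀ E : List (Fin m × Fin m), (stk E).drop j = stk (E.drop j) := by
  induction j with
  | zero => intro E; rfl
  | succ j ih =>
    intro E
    cases E with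
    | nil => rfl
    | cons e E => exact ih E

lemma pk_nil : pk [] = 0 := rfl

lemma pk_cons (a : ℕ) (l : List ℕ) : pk (a :: l) = 65536 ^ a + pk l := by
  simp [pk]

lemma pk_append (l l' : List ℕ) : pk (l ++ l') = pk l + pk l' := by
  simp [pk]

lemma pe_eq (c : ℕ) : pe c = 65536 ^ c := rfl

/-- Value of a list of atoms. -/
def sumAt (x : ℕ → ℕ) (l : List ℕ) : ℕ := (l.map x).sum

lemma sumAt_nil (x : ℕ → ℕ) : sumAt x [] = 0 := rfl

lemma sumAt_cons (x : ℕ → ℕ) (a : ℕ) (l : List ℕ) : sumAt x (a :: l) = x a + sumAt x l := by
  simp [sumAt]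

lemma sumAt_append (x : ℕ → ℕ) (l l' : List ℕ) : sumAt x (l ++ l') = sumAt x l + sumAt x l' := by
  simp [sumAt]

/-- Remove the zeros and decrease the other entries. -/
def shiftDown : List ℕ → List ℕ
  | [] => []
  | 0 :: l => shiftDown l
  | (a + 1) :: l => a :: shiftDown l

lemma pk_decomp : ∀ l : List ℕ, pk l = l.count 0 + 65536 * pk (shiftDown l)
  | [] => rfl
  | 0 :: l => by
    rw [pk_cons, pk_decomp l, shiftDown, List.count_cons_self]
    omega
  | (a + 1) :: l => by
    rw [pk_cons, pk_decomp l, shiftDown, pk_cons, List.count_cons_of_ne (by omega), pow_succ]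
    ring

lemma sumAt_decomp (x : ℕ → ℕ) :
    ∀ l : List ℕ, sumAt x l = l.count 0 * x 0 + sumAt (fun i => x (i + 1)) (shiftDown l)
  | [] => by simp [sumAt, shiftDown]
  | 0 :: l => by
    rw [sumAt_cons, sumAt_decomp x l, shiftDown, List.count_cons_self]
    ring
  | (a + 1) :: l => by
    rw [sumAt_cons, sumAt_decomp x l, shiftDown, sumAt_cons, List.count_cons_of_ne (by omega)]
    ring

lemma length_shiftDown : ∀ l : List ℕ, (shiftDown l).length ≤ l.length
  | [] => le_refl _
  | 0 :: l => by
    rw [shiftDown, List.length_cons]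
    exact (length_shiftDown l).trans (Nat.le_succ _)
  | (a + 1) :: l => by
    rw [shiftDown, List.length_cons, List.length_cons]
    exact Nat.succ_le_succ (length_shiftDown l)

lemma mem_shiftDown : ∀ (l : List ℕ) (a : ℕ), a ∈ shiftDown l → a + 1 ∈ l
  | [], a, h => by simp [shiftDown] at h
  | 0 :: l, a, h => by
    rw [shiftDown] at h
    exact List.mem_cons_of_mem _ (mem_shiftDown l a h)
  | (b + 1) :: l, a, h => by
    rw [shiftDown, List.mem_cons] at h
    rcases h with h | h
    · rw [h]; exact List.mem_cons_self
    · exact List.mem_cons_of_mem _ (mem_shiftDown l a h)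

/-- Two short lists of atoms with the same packed vector have the same value. -/
theorem pk_inj (n : ℕ) : ∀ (l₁ l₂ : List ℕ), (∀ a ∈ l₁, a < n) → (∀ a ∈ l₂, a < n) →
    l₁.length < 65536 → l₂.length < 65536 → pk l₁ = pk l₂ →
    ∀ x : ℕ → ℕ, sumAt x l₁ = sumAt x l₂ := by
  induction n with
  | zero =>
    intro l₁ l₂ h1 h2 _ _ _ x
    have e1 : l₁ = [] := List.eq_nil_iff_forall_not_mem.mpr fun a ha => absurd (h1 a ha) (by omega)
    have e2 : l₂ = [] := List.eq_nil_iff_forall_not_mem.mpr fun a ha => absurd (h2 a ha) (by omega)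
    rw [e1, e2]
  | succ n ih =>
    intro l₁ l₂ h1 h2 hl1 hl2 hpk x
    rw [pk_decomp l₁, pk_decomp l₂] at hpk
    have c1 : l₁.count 0 ≤ l₁.length := List.count_le_length
    have c2 : l₂.count 0 ≤ l₂.length := List.count_le_length
    have hc : l₁.count 0 = l₂.count 0 := by omega
    have hp : pk (shiftDown l₁) = pk (shiftDown l₂) := by omega
    have := ih (shiftDown l₁) (shiftDown l₂)
      (fun a ha => by have := h1 _ (mem_shiftDown l₁ a ha); omega)
      (fun a ha => by have := h2 _ (mem_shiftDown l₂ a ha); omega)
      ((length_shiftDown l₁).trans_lt hl1) ((length_shiftDown l₂).trans_lt hl2) hp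
      (fun i => x (i + 1))
    rw [sumAt_decomp x l₁, sumAt_decomp x l₂, hc, this]

lemma exists_bound : ∀ l : List ℕ, ∃ n, ∀ a ∈ l, a < n
  | [] => ⟨0, fun a ha => by simp at ha⟩
  | b :: l => by
    obtain ⟨n, hn⟩ := exists_bound l
    refine ⟨max n (b + 1), fun a ha => ?_⟩
    rw [List.mem_cons] at ha
    rcases ha with rfl | ha
    · exact lt_of_lt_of_le (Nat.lt_succ_self _) (le_max_right _ _)
    · exact lt_of_lt_of_le (hn a ha) (le_max_left _ _)

theorem pk_inj' (l₁ l₂ : List ℕ) (hl1 : l₁.length < 65536) (hl2 : l₂.length < 65536)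
    (hpk : pk l₁ = pk l₂) (x : ℕ → ℕ) : sumAt x l₁ = sumAt x l₂ := by
  obtain ⟨n, hn⟩ := exists_bound (l₁ ++ l₂)
  exact pk_inj n l₁ l₂ (fun a ha => hn a (List.mem_append_left _ ha))
    (fun a ha => hn a (List.mem_append_right _ ha)) hl1 hl2 hpk x

/-- `k` copies of a list. -/
def rep : ℕ → List ℕ → List ℕ
  | 0, _ => []
  | k + 1, l => l ++ rep k l

lemma sumAt_rep (x : ℕ → ℕ) (k : ℕ) (l : List ℕ) : sumAt x (rep k l) = k * sumAt x l := by
  induction k with
  | zero => simp [rep, sumAt]
  | succ k ih => rw [rep, sumAt_append, ih]; ring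

lemma pk_rep (k : ℕ) (l : List ℕ) : pk (rep k l) = k * pk l := by
  induction k with
  | zero => simp [rep, pk]
  | succ k ih => rw [rep, pk_append, ih]; ring

lemma length_rep (k : ℕ) (l : List ℕ) : (rep k l).length = k * l.length := by
  induction k with
  | zero => simp [rep]
  | succ k ih => rw [rep, List.length_append, ih]; ring

lemma trace_append (W : Fin m → Fin m → ℕ) :
    ∀ X E : List (Fin m × Fin m), IsGreedyTrace W (X ++ E) → IsGreedyTrace W E
  | [], _, h => h
  | _ :: X, E, h => trace_append W X E h.1

lemma wsum_append (W : Fin m → Fin m → ℕ) (X E : List (Fin m × Fin m)) :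
    wsum W (X ++ E) = wsum W X + wsum W E := by
  induction X with
  | nil => simp [wsum]
  | cons e X ih => simp only [List.cons_append, wsum, ih]; omega

lemma wsum_le_append (W : Fin m → Fin m → ℕ) (X : List (Fin m × Fin m)) (e : Fin m × Fin m) :
    W e.1 e.2 ≤ wsum W (X ++ [e]) := by
  rw [wsum_append]
  simp only [wsum]
  omega

variable [NeZero m]

/-- Valuation of atom codes. -/
def xval (W : Fin m → Fin m → ℕ) (len : Fin m → ℕ) (g : ℕ) (k : ℕ) : ℕ :=
  if k = 0 then g else if k ≤ 16 then len (Fin.ofNat m (k - 1))
  else W (Fin.ofNat m ((k - 17) / 16)) (Fin.ofNat m ((k - 17) % 16))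

lemma ofNat_val (p : Fin m) : Fin.ofNat m p.val = p := by
  apply Fin.ext
  simp [Fin.ofNat, Nat.mod_eq_of_lt p.isLt]

lemma xval_zero (W : Fin m → Fin m → ℕ) (len : Fin m → ℕ) (g : ℕ) : xval W len g 0 = g := by
  simp [xval]

lemma xval_cl (W : Fin m → Fin m → ℕ) (len : Fin m → ℕ) (g : ℕ) (a : ℕ) (ha : a < 16) :
    xval W len g (cl a) = len (Fin.ofNat m a) := by
  have e0 : cl a = a + 1 := rfl
  unfold xval
  rw [e0, if_neg (by omega), if_pos (by omega)]
  have e : a + 1 - 1 = a := by omega
  rw [e]

lemma xval_cw (W : Fin m → Fin m → ℕ) (len : Fin m → ℕ) (g : ℕ) (a b : ℕ) (hb : b < 16) :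
    xval W len g (cw a b) = W (Fin.ofNat m a) (Fin.ofNat m b) := by
  have e0 : cw a b = 17 + 16 * a + b := rfl
  unfold xval
  rw [e0, if_neg (by omega), if_neg (by omega)]
  have e1 : (17 + 16 * a + b - 17) / 16 = a := by omega
  have e2 : (17 + 16 * a + b - 17) % 16 = b := by omega
  rw [e1, e2]

section sound

variable (hm : m ≤ 16) (W : Fin m → Fin m → ℕ) (len : Fin m → ℕ)
  (hlen : ∀ a b, a ≠ b → W a b + 1 ≤ len a ∧ W a b + 1 ≤ len b)
  (htri : ∀ a b c, W a b + W b c ≤ len b + W a c)
  (hmonge : ∀ a b c d, W a d ≤ W a b → W c b ≤ W a b → W a d + W c b ≤ W a b + W c d)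

include hm in
lemma xval_cw_fin (g : ℕ) (p q : Fin m) : xval W len g (cw p.val q.val) = W p q := by
  rw [xval_cw W len g _ _ (lt_of_lt_of_le q.isLt hm), ofNat_val, ofNat_val]

include hm in
lemma xval_cl_fin (g : ℕ) (a : Fin m) : xval W len g (cl a.val) = len a := by
  rw [xval_cl W len g _ (lt_of_lt_of_le a.isLt hm), ofNat_val]

lemma pk_one (a : ℕ) : pe a = pk [a] := by simp [pk, pe_eq]

lemma pk_two (a b : ℕ) : Nat.add (pe a) (pe b) = pk [a, b] := by simp [pk, pe_eq]

include hm hlen htri hmonge

lemma factNum_sound (E : List (Fin m × Fin m)) (hE : IsGreedyTrace W E) (g : ℕ)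
    (hg : ∀ p q, valid E p q = true → W p q ≤ g) (k a b c : ℕ) (hb : b < 16) (hc : c < 16)
    (SL SR : ℕ) (h : factNum m (stk E) (om E) (im E) k a b c = some (SL, SR)) :
    ∃ l r : List ℕ, SL = pk l ∧ SR = pk r ∧ l.length ≤ 2 ∧ r.length ≤ 2 ∧
      sumAt (xval W len g) l ≤ sumAt (xval W len g) r := by
  rw [factNum_eq] at h
  cases hk2 : Nat.beq k 2 with
  | true =>
    rw [hk2] at h
    simp only [cond_true, Option.some.injEq, Prod.mk.injEq] at h
    obtain ⟨rfl, rfl⟩ := h
    refine ⟨[cw a b, cw b c], [cl b, cw a c], pk_two _ _, pk_two _ _, by simp, by simp, ?_⟩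
    simp only [sumAt_cons, sumAt_nil, xval_cw W len g _ _ hb, xval_cw W len g _ _ hc,
      xval_cl W len g _ hb]
    have := htri (Fin.ofNat m a) (Fin.ofNat m b) (Fin.ofNat m c)
    omega
  | false =>
    rw [hk2] at h
    simp only [cond_false] at h
    cases ha : Nat.blt a m with
    | false => rw [ha] at h; simp at h
    | true =>
      cases hbm : Nat.blt b m with
      | false => rw [ha, hbm] at h; simp at h
      | true =>
        rw [ha, hbm] at h
        simp only [cond_true] at h
        have ha' : a < m := by simpa [Nat.blt_eq] using ha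
        have hb' : b < m := by simpa [Nat.blt_eq] using hbm
        have eab : ∀ g', xval W len g' (cw a b) = W ⟨a, ha'⟩ ⟨b, hb'⟩ :=
          fun g' => xval_cw_fin hm W len g' ⟨a, ha'⟩ ⟨b, hb'⟩
        cases hk : Nat.blt k 2 with
        | true =>
          rw [hk] at h
          simp only [cond_true, factLen_eq] at h
          cases hab : Nat.beq a b with
          | true => rw [hab] at h; simp at h
          | false =>
            rw [hab] at h
            simp only [cond_false, Option.some.injEq, Prod.mk.injEq] at h
            obtain ⟨rfl, rfl⟩ := h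
            have hne : (⟨a, ha'⟩ : Fin m) ≠ ⟨b, hb'⟩ := by
              intro e
              have e' : a = b := congrArg Fin.val e
              rw [e'] at hab
              simp at hab
            have hl := hlen _ _ hne
            refine ⟨[cw a b], [cl (bif Nat.beq k 0 then a else b)], pk_one _, pk_one _,
              by simp, by simp, ?_⟩
            simp only [sumAt_cons, sumAt_nil, eab]
            cases hk0 : Nat.beq k 0 with
            | true =>
              have e : xval W len g (cl a) = len ⟨a, ha'⟩ := xval_cl_fin hm W len g ⟨a, ha'⟩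
              simp only [cond_true, e]
              omega
            | false =>
              have e : xval W len g (cl b) = len ⟨b, hb'⟩ := xval_cl_fin hm W len g ⟨b, hb'⟩
              simp only [cond_false, e]
              omega
        | false =>
          rw [hk] at h
          simp only [cond_false] at h
          cases hk5 : Nat.beq k 5 with
          | true =>
            rw [hk5] at h
            simp only [cond_true, factNxt_eq] at h
            cases hv : validL m (stk E) (om E) (im E) a b with
            | false => rw [hv] at h; simp at h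
            | true =>
              rw [hv] at h
              simp only [cond_true, Option.some.injEq, Prod.mk.injEq] at h
              obtain ⟨rfl, rfl⟩ := h
              have hv' : valid E ⟨a, ha'⟩ ⟨b, hb'⟩ = true := validL_spec E ⟨a, ha'⟩ ⟨b, hb'⟩ hv
              have := hg _ _ hv'
              refine ⟨[cw a b], [0], pk_one _, by simp [pk], by simp, by simp, ?_⟩
              simp only [sumAt_cons, sumAt_nil, eab, xval_zero]
              omega
          | false =>
            rw [hk5] at h
            simp only [cond_false] at h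
            have hd : IsGreedyTrace W (E.drop c) :=
              trace_append W (E.take c) (E.drop c) (by rw [List.take_append_drop]; exact hE)
            cases hdrop : E.drop c with
            | nil =>
              rw [factDyn_nil m _ k a b c (by rw [stk_drop, hdrop]; rfl)] at h
              simp at h
            | cons ef Ef =>
              rw [factDyn_cons m _ k a b c (ef.1.val, ef.2.val, om Ef, im Ef, cm Ef) (stk Ef)
                (by rw [stk_drop, hdrop]; rfl)] at h
              rw [hdrop] at hd
              have hq16 : ef.2.val < 16 := lt_of_lt_of_le ef.2.isLt hm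
              have eef : xval W len g (cw ef.1.val ef.2.val) = W ef.1 ef.2 :=
                xval_cw_fin hm W len g ef.1 ef.2
              cases hk3 : Nat.beq k 3 with
              | true =>
                have h' : (bif validM m (om Ef) (im Ef) (cm Ef) a b then
                    some (pe (cw a b), pe (cw ef.1.val ef.2.val)) else none) = some (SL, SR) := by
                  rw [hk3, cond_true, factGrd_eq] at h; exact h
                cases hv : validM m (om Ef) (im Ef) (cm Ef) a b with
                | false => rw [hv] at h'; simp at h'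
                | true =>
                  rw [hv] at h'
                  simp only [cond_true, Option.some.injEq, Prod.mk.injEq] at h'
                  obtain ⟨rfl, rfl⟩ := h'
                  have hv' : valid Ef ⟨a, ha'⟩ ⟨b, hb'⟩ = true :=
                    (validM_spec Ef ⟨a, ha'⟩ ⟨b, hb'⟩).symm.trans hv
                  have := hd.2.2 _ _ hv'
                  refine ⟨[cw a b], [cw ef.1.val ef.2.val], pk_one _, pk_one _, by simp, by simp, ?_⟩
                  simp only [sumAt_cons, sumAt_nil, eab, eef]
                  omega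
              | false =>
                have h' : (bif validM m (om Ef) (im Ef) (cm Ef) ef.1.val b then
                    (bif validM m (om Ef) (im Ef) (cm Ef) a ef.2.val then
                      some (Nat.add (pe (cw ef.1.val b)) (pe (cw a ef.2.val)),
                        Nat.add (pe (cw ef.1.val ef.2.val)) (pe (cw a b)))
                    else none) else none) = some (SL, SR) := by
                  rw [hk3, cond_false, factMon_eq] at h; exact h
                cases hv1 : validM m (om Ef) (im Ef) (cm Ef) ef.1.val b with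
                | false => rw [hv1] at h'; simp at h'
                | true =>
                  cases hv2 : validM m (om Ef) (im Ef) (cm Ef) a ef.2.val with
                  | false => rw [hv1, hv2] at h'; simp at h'
                  | true =>
                    rw [hv1, hv2] at h'
                    simp only [cond_true, Option.some.injEq, Prod.mk.injEq] at h'
                    obtain ⟨rfl, rfl⟩ := h'
                    have hv1' : valid Ef ef.1 ⟨b, hb'⟩ = true :=
                      (validM_spec Ef ef.1 ⟨b, hb'⟩).symm.trans hv1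
                    have hv2' : valid Ef ⟨a, ha'⟩ ef.2 = true :=
                      (validM_spec Ef ⟨a, ha'⟩ ef.2).symm.trans hv2
                    have := hmonge ef.1 ef.2 ⟨a, ha'⟩ ⟨b, hb'⟩ (hd.2.2 _ _ hv1') (hd.2.2 _ _ hv2')
                    have e1 : xval W len g (cw ef.1.val b) = W ef.1 ⟨b, hb'⟩ :=
                      xval_cw_fin hm W len g ef.1 ⟨b, hb'⟩
                    have e2 : xval W len g (cw a ef.2.val) = W ⟨a, ha'⟩ ef.2 :=
                      xval_cw_fin hm W len g ⟨a, ha'⟩ ef.2
                    refine ⟨[cw ef.1.val b, cw a ef.2.val], [cw ef.1.val ef.2.val, cw a b],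
                      pk_two _ _, pk_two _ _, by simp, by simp, ?_⟩
                    simp only [sumAt_cons, sumAt_nil, eab, eef, e1, e2]
                    omega

omit [NeZero m] hm hlen htri hmonge in
lemma accLR_zero (S : List (ℕ × ℕ × ℕ × ℕ × ℕ)) (O I N : ℕ) : accLR m S O I 0 N = none := rfl

omit [NeZero m] hm hlen htri hmonge in
lemma accLR_succ (S : List (ℕ × ℕ × ℕ × ℕ × ℕ)) (O I f N : ℕ) :
    accLR m S O I (f + 1) N = (bif Nat.beq N 0 then some (0, 0) else
      comb (factN m S O I (Nat.mod N 65536)) (accLR m S O I f (Nat.div N 65536))) :=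
  cnd_eq _ _ _

lemma accLR_sound (E : List (Fin m × Fin m)) (hE : IsGreedyTrace W E) (g : ℕ)
    (hg : ∀ p q, valid E p q = true → W p q ≤ g) :
    ∀ (f N SL SR : ℕ), accLR m (stk E) (om E) (im E) f N = some (SL, SR) →
      ∃ L R : List ℕ, SL = pk L ∧ SR = pk R ∧ L.length ≤ 2 * f ∧ R.length ≤ 2 * f ∧
        sumAt (xval W len g) L ≤ sumAt (xval W len g) R := by
  intro f
  induction f with
  | zero =>
    intro N SL SR h
    rw [accLR_zero] at h
    simp at h
  | succ f ih =>
    intro N SL SR h
    rw [accLR_succ] at h
    cases hN : Nat.beq N 0 with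
    | true =>
      rw [hN] at h
      simp only [cond_true, Option.some.injEq, Prod.mk.injEq] at h
      obtain ⟨rfl, rfl⟩ := h
      exact ⟨[], [], rfl, rfl, by simp, by simp, le_refl _⟩
    | false =>
      rw [hN] at h
      simp only [cond_false] at h
      cases h1 : factN m (stk E) (om E) (im E) (Nat.mod N 65536) with
      | none => rw [h1, comb_none] at h; simp at h
      | some lr =>
        cases h2 : accLR m (stk E) (om E) (im E) f (Nat.div N 65536) with
        | none => rw [h1, h2, comb_some_none] at h; simp at h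
        | some LR =>
          rw [h1, h2, comb_some_some] at h
          simp only [Option.some.injEq, Prod.mk.injEq] at h
          obtain ⟨rfl, rfl⟩ := h
          obtain ⟨l, r, e1, e2, l1, l2, hs⟩ := factNum_sound hm W len hlen htri hmonge E hE g hg
            _ _ _ _ (Nat.mod_lt _ (by norm_num)) (Nat.mod_lt _ (by norm_num)) lr.1 lr.2 h1
          obtain ⟨L, R, e3, e4, l3, l4, hs'⟩ := ih _ LR.1 LR.2 h2
          refine ⟨l ++ L, r ++ R, ?_, ?_, ?_, ?_, ?_⟩
          · rw [pk_append, ← e1, ← e3]; rfl
          · rw [pk_append, ← e2, ← e4]; rfl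
          · rw [List.length_append]; omega
          · rw [List.length_append]; omega
          · rw [sumAt_append, sumAt_append]; omega

/-- The atoms of the right-hand side of the target inequality in the state `E`. -/
def goalR (E : List (Fin m × Fin m)) : List ℕ :=
  (E.map fun e => cw e.1.val e.2.val) ++ goalR0 m

omit hlen htri hmonge in
lemma sumAt_goalL (g : ℕ) :
    sumAt (xval W len g) (goalL m) =
      2 * ((List.range (m - 1)).map fun j => W (Fin.ofNat m j) (Fin.ofNat m (j + 1))).sum := by
  have key : ∀ l : List ℕ, (∀ j ∈ l, j + 1 < 16) →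
      sumAt (xval W len g) (l.flatMap fun j => [cw j (j + 1), cw j (j + 1)]) =
        2 * (l.map fun j => W (Fin.ofNat m j) (Fin.ofNat m (j + 1))).sum := by
    intro l
    induction l with
    | nil => intro _; simp [sumAt]
    | cons j l ih =>
      intro hl
      rw [List.flatMap_cons, sumAt_append, ih (fun i hi => hl i (List.mem_cons_of_mem _ hi))]
      simp only [sumAt_cons, sumAt_nil, xval_cw W len g _ _ (hl j List.mem_cons_self),
        List.map_cons, List.sum_cons]
      omega
  exact key _ (fun j hj => by have := List.mem_range.mp hj; omega)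

omit hlen htri hmonge in
lemma sumAt_goalR (g : ℕ) (E : List (Fin m × Fin m)) :
    sumAt (xval W len g) (goalR E) =
      wsum W E + (g + ((List.range m).map fun a => len (Fin.ofNat m a)).sum) := by
  unfold goalR goalR0
  rw [sumAt_append, sumAt_cons, xval_zero]
  have e1 : ∀ l : List ℕ, (∀ a ∈ l, a < 16) → sumAt (xval W len g) (l.map cl) =
      (l.map fun a => len (Fin.ofNat m a)).sum := by
    intro l
    induction l with
    | nil => intro _; simp [sumAt]
    | cons a l ih =>
      intro hl
      simp only [List.map_cons, sumAt_cons, ih (fun i hi => hl i (List.mem_cons_of_mem _ hi)),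
        xval_cl W len g _ (hl a List.mem_cons_self), List.sum_cons]
  have e2 : sumAt (xval W len g) (E.map fun e => cw e.1.val e.2.val) = wsum W E := by
    induction E with
    | nil => simp [sumAt, wsum]
    | cons e E ih => simp only [List.map_cons, sumAt_cons, ih, xval_cw_fin hm, wsum]
  rw [e1 _ (fun a ha => by have := List.mem_range.mp ha; omega), e2]

omit [NeZero m] hm hlen htri hmonge in
lemma length_goalL (hm : m ≤ 16) : (goalL m).length ≤ 30 := by
  have key : ∀ l : List ℕ, (l.flatMap fun j => [cw j (j + 1), cw j (j + 1)]).length =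
      2 * l.length := by
    intro l
    induction l with
    | nil => simp
    | cons j l ih => rw [List.flatMap_cons, List.length_append, ih]; simp; omega
  unfold goalL
  rw [key, List.length_range]
  omega

omit [NeZero m] hm hlen htri hmonge in
lemma length_goalR (hm : m ≤ 16) (E : List (Fin m × Fin m)) :
    (goalR E).length ≤ E.length + 17 := by
  simp only [goalR, goalR0, List.length_append, List.length_map, List.length_cons,
    List.length_range]
  omega

lemma checkCert_sound (E : List (Fin m × Fin m)) (hE : IsGreedyTrace W E)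
    (hEl : E.length < 16) (g : ℕ) (hg : ∀ p q, valid E p q = true → W p q ≤ g) (k N : ℕ)
    (h : checkCert m (pk (goalL m)) (stk E) (om E) (im E) (pk (goalR E)) k N = true) :
    2 * ((List.range (m - 1)).map fun j => W (Fin.ofNat m j) (Fin.ofNat m (j + 1))).sum ≤
      ((List.range m).map fun a => len (Fin.ofNat m a)).sum + wsum W E + g := by
  cases hacc : accLR m (stk E) (om E) (im E) 64 N with
  | none => rw [checkCert_none _ _ _ _ _ _ _ _ hacc] at h; simp at h
  | some LR =>
    rw [checkCert_some _ _ _ _ _ _ _ _ LR hacc] at h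
    simp only [Bool.and_eq_true] at h
    obtain ⟨hk0, hk1, heq⟩ := h
    have hk0' : 0 < k := by simpa [Nat.blt_eq] using hk0
    have hk1' : k < 256 := by simpa [Nat.blt_eq] using hk1
    have heq' : k * pk (goalL m) + LR.2 = k * pk (goalR E) + LR.1 := Nat.eq_of_beq_eq_true heq
    obtain ⟨L, R, e1, e2, l1, l2, hs⟩ :=
      accLR_sound hm W len hlen htri hmonge E hE g hg 64 N LR.1 LR.2 hacc
    have hpk : pk (rep k (goalL m) ++ R) = pk (rep k (goalR E) ++ L) := by
      rw [pk_append, pk_append, pk_rep, pk_rep, ← e1, ← e2]
      exact heq'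
    have hlL := length_goalL hm
    have hlR := length_goalR hm E
    have b1 : (rep k (goalL m) ++ R).length < 65536 := by
      rw [List.length_append, length_rep]
      have : k * (goalL m).length ≤ 255 * 30 := Nat.mul_le_mul (by omega) hlL
      omega
    have b2 : (rep k (goalR E) ++ L).length < 65536 := by
      rw [List.length_append, length_rep]
      have : k * (goalR E).length ≤ 255 * 33 := Nat.mul_le_mul (by omega) (by omega)
      omega
    have hsum := pk_inj' _ _ b1 b2 hpk (xval W len g)
    rw [sumAt_append, sumAt_append, sumAt_rep, sumAt_rep, sumAt_goalL hm, sumAt_goalR hm] at hsum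
    have h3 : k * (2 * ((List.range (m - 1)).map
        fun j => W (Fin.ofNat m j) (Fin.ofNat m (j + 1))).sum) ≤
        k * (wsum W E + (g + ((List.range m).map fun a => len (Fin.ofNat m a)).sum)) := by
      omega
    have := Nat.le_of_mul_le_mul_left h3 hk0'
    omega

/-- Soundness of the check of a certificate tree. -/
theorem chk_sound :
    ∀ (t : CTree) (E : List (Fin m × Fin m)) (i : ℕ),
      chk m (pk (goalL m)) t (stk E) E.length (om E) (im E) (cm E) (pk (goalR E)) i = true →
      ∀ X : List (Fin m × Fin m), IsGreedyTrace W (X ++ E) → (X ++ E).length + 1 = m →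
        (∀ X' p q, X = X' ++ [(p, q)] → i ≤ p.val * m + q.val) →
        2 * ((List.range (m - 1)).map fun j => W (Fin.ofNat m j) (Fin.ofNat m (j + 1))).sum ≤
          ((List.range m).map fun a => len (Fin.ofNat m a)).sum + wsum W (X ++ E) := by
  intro t
  induction t with
  | leaf k c =>
    intro E i h X hX hlenX _
    rw [chk_leaf] at h
    simp only [Bool.and_eq_true] at h
    obtain ⟨hlt, hc⟩ := h
    have hlt' : E.length + 1 < m := by simpa [Nat.blt_eq] using hlt
    rcases List.eq_nil_or_concat' X with rfl | ⟨X', e, rfl⟩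
    · simp only [List.nil_append] at hlenX
      omega
    · have hX' : IsGreedyTrace W (e :: E) :=
        trace_append W X' (e :: E) (by simpa using hX)
      have key := checkCert_sound hm W len hlen htri hmonge E hX'.1 (by omega)
        (wsum W (X' ++ [e]))
        (fun p q hv => (hX'.2.2 p q hv).trans (wsum_le_append W X' e)) k c hc
      rw [wsum_append]
      omega
  | nil =>
    intro E i h X hX hlenX hidx
    rw [chk_nil] at h
    simp only [Bool.and_eq_true] at h
    obtain ⟨hmm, hlt⟩ := h
    have hmm' : m * m ≤ i := Nat.le_of_ble_eq_true hmm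
    have hlt' : E.length + 1 < m := by simpa [Nat.blt_eq] using hlt
    rcases List.eq_nil_or_concat' X with rfl | ⟨X', e, rfl⟩
    · simp only [List.nil_append] at hlenX
      omega
    · obtain ⟨p, q⟩ := e
      have h1 := hidx X' p q rfl
      have h2 := idx_lt p q
      omega
  | cons t ts iht ihts =>
    intro E i h X hX hlenX hidx
    rw [chk_cons] at h
    simp only [Bool.and_eq_true] at h
    obtain ⟨h1, h2⟩ := h
    by_cases hX0 : ∃ X' p q, X = X' ++ [(p, q)] ∧ p.val * m + q.val = i
    · obtain ⟨X', p, q, rfl, hpq⟩ := hX0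
      have e1 : Nat.div i m = p.val := by rw [← hpq]; exact idx_div p q
      have e2 : Nat.mod i m = q.val := by rw [← hpq]; exact idx_mod p q
      rw [e1, e2, validM_spec] at h1
      have hX' : IsGreedyTrace W ((p, q) :: E) :=
        trace_append W X' ((p, q) :: E) (by simpa using hX)
      have hv : valid E p q = true := hX'.2.1
      rw [hv] at h1
      simp only [cond_true] at h1
      have hg : Nat.add (pe (cw p.val q.val)) (pk (goalR E)) = pk (goalR ((p, q) :: E)) := by
        simp [goalR, pk, pe_eq]
      rw [hg] at h1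
      have := iht ((p, q) :: E) 0 h1 X' (by simpa using hX) (by simpa using hlenX)
        (fun _ _ _ _ => Nat.zero_le _)
      simpa using this
    · refine ihts E (Nat.succ i) h2 X hX hlenX (fun X' p q hXe => ?_)
      have h3 := hidx X' p q hXe
      have h4 : p.val * m + q.val ≠ i := fun h' => hX0 ⟨X', p, q, hXe, h'⟩
      omega

/-- A successful check of a certificate tree gives the core inequality for every complete
greedy trace. -/
theorem cert_core (t : CTree) (ht : chk m (pk (goalL m)) t [] 0 0 0 0 (pk (goalR0 m)) 0 = true)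
    (E : List (Fin m × Fin m)) (hE : IsGreedyTrace W E) (hlenE : E.length + 1 = m) :
    2 * ((List.range (m - 1)).map fun j => W (Fin.ofNat m j) (Fin.ofNat m (j + 1))).sum ≤
      ((List.range m).map fun a => len (Fin.ofNat m a)).sum + wsum W E := by
  have := chk_sound hm W len hlen htri hmonge t [] 0 ht E (by simpa using hE)
    (by simpa using hlenE) (fun _ _ _ _ => Nat.zero_le _)
  simpa using this

/-- The same for the complete greedy traces that start with the edge (a, b). -/
theorem cert_core_edge (a b : Fin m) (t : CTree)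
    (ht : chk m (pk (goalL m)) t (stk [(a, b)]) 1 (om [(a, b)]) (im [(a, b)]) (cm [(a, b)])
      (pk (goalR [(a, b)])) 0 = true)
    (X : List (Fin m × Fin m)) (hX : IsGreedyTrace W (X ++ [(a, b)]))
    (hlenX : (X ++ [(a, b)]).length + 1 = m) :
    2 * ((List.range (m - 1)).map fun j => W (Fin.ofNat m j) (Fin.ofNat m (j + 1))).sum ≤
      ((List.range m).map fun a => len (Fin.ofNat m a)).sum + wsum W (X ++ [(a, b)]) :=
  chk_sound hm W len hlen htri hmonge t [(a, b)] 0 ht X hX hlenX (fun _ _ _ _ => Nat.zero_le _)

end sound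

end Vale.Agent.Lib.P333
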