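import Vale.Agent.Lib.P333.Basic

namespace Vale.Agent.Lib.P333

variable {α : Type*} [DecidableEq α]

/-- `s` occurs in `U` at position `p`. -/
def Occ (s U : List α) (p : ℕ) : Prop :=
  (U.drop p).take s.length = s ∧ p + s.length ≤ U.length

lemma exists_occ {s U : List α} (h : s <:+: U) : ∃ p, Occ s U p := by
  obtain ⟨A, B, rfl⟩ := h
  refine ⟨A.length, ?_, ?_⟩
  · simp
  · simp only [List.length_append]; omega

lemma occ_overlap {s t U : List α} {p q : ℕ} (hs : Occ s U p) (ht : Occ t U q)
    (hpq : p < q) (hend : p + s.length < q + t.length) : p + s.length ≤ q + ov s t := by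
  by_cases hle : p + s.length ≤ q
  · omega
  rw [not_le] at hle
  have : p + s.length - q ≤ ov s t := by
    apply le_ov
    · omega
    · omega
    · have e1 : s.drop (s.length - (p + s.length - q))
          = (U.drop q).take (p + s.length - q) := by
        calc s.drop (s.length - (p + s.length - q))
            = ((U.drop p).take s.length).drop (s.length - (p + s.length - q)) := by rw [hs.1]
          _ = (U.drop q).take (p + s.length - q) := by
            rw [List.drop_take, List.drop_drop]
            congr 1
            · omega
            · congr 1; omega
      have e2 : t.take (p + s.length - q) = (U.drop q).take (p + s.length - q) := by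
        calc t.take (p + s.length - q)
            = ((U.drop q).take t.length).take (p + s.length - q) := by rw [ht.1]
          _ = (U.drop q).take (p + s.length - q) := by
            rw [List.take_take]; congr 1; omega
      rw [e1, e2]
  omega

lemma occ_strict {s t U : List α} {p q : ℕ} (hs : Occ s U p) (ht : Occ t U q)
    (hst : ¬ s <:+: t) (hts : ¬ t <:+: s) (hpq : p ≤ q) :
    p < q ∧ p + s.length < q + t.length := by
  have hend : p + s.length < q + t.length := by
    by_contra hcon
    rw [not_lt] at hcon
    apply hts
    have : t = (s.drop (q - p)).take t.length := by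
      calc t = (U.drop q).take t.length := ht.1.symm
        _ = (((U.drop p).take s.length).drop (q - p)).take t.length := by
            rw [List.drop_take, List.drop_drop, List.take_take]
            congr 1
            · omega
            · congr 1; omega
        _ = (s.drop (q - p)).take t.length := by rw [hs.1]
    rw [this]
    exact (List.take_prefix _ _).isInfix.trans (List.drop_suffix _ _).isInfix
  refine ⟨?_, hend⟩
  by_contra hcon
  have hpq' : p = q := by omega
  subst hpq'
  apply hst
  have : s = t.take s.length := by
    calc s = (U.drop p).take s.length := hs.1.symm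
      _ = ((U.drop p).take t.length).take s.length := by
          rw [List.take_take]; congr 1; omega
      _ = t.take s.length := by rw [ht.1]
  rw [this]
  exact (List.take_prefix _ _).isInfix

/-- Sum of the overlaps of consecutive strings; the head of the list is the last string. -/
def chainOv : List (List α) → ℕ
  | [] => 0
  | [_] => 0
  | (z :: y :: r) => ov y z + chainOv (y :: r)

/-- Any common superstring of a factor-free family is at least as long as the total length
minus the overlaps of consecutive strings in a suitable ordering of the family. -/
theorem chain_bound (U : List α) (F : Finset (List α))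
    (hff : ∀ s ∈ F, ∀ t ∈ F, s <:+: t → s = t) (hU : ∀ s ∈ F, s <:+: U) :
    ∃ l : List (List α), l.Nodup ∧ (∀ s, s ∈ l ↔ s ∈ F) ∧
      (l.map List.length).sum ≤ U.length + chainOv l := by
  classical
  have hpos : ∀ s : List α, ∃ p, s ∈ F → Occ s U p := by
    intro s
    by_cases hs : s ∈ F
    · obtain ⟨p, hp⟩ := exists_occ (hU s hs)
      exact ⟨p, fun _ => hp⟩
    · exact ⟨0, fun h => absurd h hs⟩
  choose pos hpos using hpos
  have key : ∀ G : Finset (List α), G ⊆ F → ∃ l : List (List α), l.Nodup ∧
      (∀ s, s ∈ l ↔ s ∈ G) ∧
      (∀ z ∈ l.head?, (l.map List.length).sum ≤ pos z + z.length + chainOv l) := by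
    intro G
    induction G using Finset.induction_on_max_value pos with
    | empty => intro _; exact ⟨[], List.nodup_nil, by simp, by simp⟩
    | insert a G ha hmax ih =>
      intro hsub
      obtain ⟨l, hnd, hmem, hb⟩ := ih (fun x hx => hsub (Finset.mem_insert_of_mem hx))
      refine ⟨a :: l, ?_, ?_, ?_⟩
      · exact List.nodup_cons.mpr ⟨fun h => ha ((hmem a).mp h), hnd⟩
      · intro s; simp [hmem]
      · intro z hz
        simp only [List.head?_cons, Option.mem_def, Option.some.injEq] at hz
        subst hz
        cases l with
        | nil => simp [chainOv]
        | cons y r =>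
          have hyG : y ∈ G := (hmem y).mp (by simp)
          have hyF : y ∈ F := hsub (Finset.mem_insert_of_mem hyG)
          have haF : a ∈ F := hsub (Finset.mem_insert_self a G)
          have hya : y ≠ a := fun h => ha (h ▸ hyG)
          have hst := occ_strict (hpos y hyF) (hpos a haF)
            (fun h => hya (hff y hyF a haF h)) (fun h => hya (hff a haF y hyF h).symm)
            (hmax y hyG)
          have hov := occ_overlap (hpos y hyF) (hpos a haF) hst.1 hst.2
          have hb' := hb y (by simp)
          simp only [List.map_cons, List.sum_cons, chainOv] at hb' ⊢
          omega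
  obtain ⟨l, hnd, hmem, hb⟩ := key F (Finset.Subset.refl F)
  refine ⟨l, hnd, hmem, ?_⟩
  cases l with
  | nil => simp
  | cons z r =>
    have hzF : z ∈ F := (hmem z).mp (by simp)
    have h1 := hb z (by simp)
    have h2 := (hpos z hzF).2
    omega

end Vale.Agent.Lib.P333
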