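import Vale.Agent.Lib.P333.Tree5

namespace Vale.Agent.Lib.P333

/-- The core inequality for complete greedy traces on five strings. -/
theorem core5 (W : Fin 5 → Fin 5 → ℕ) (len : Fin 5 → ℕ)
    (hlen : ∀ a b, a ≠ b → W a b + 1 ≤ len a ∧ W a b + 1 ≤ len b)
    (htri : ∀ a b c, W a b + W b c ≤ len b + W a c)
    (hmonge : ∀ a b c d, W a d ≤ W a b → W c b ≤ W a b → W a d + W c b ≤ W a b + W c d)
    (E : List (Fin 5 × Fin 5)) (hE : IsGreedyTrace W E) (hlenE : E.length = 4) :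
    2 * (W 0 1 + W 1 2 + W 2 3 + W 3 4) ≤
      len 0 + len 1 + len 2 + len 3 + len 4 + wsum W E := by
  have h := cert_core (m := 5) (by norm_num) W len hlen htri hmonge tree5 tree5_ok E hE
    (by omega)
  have e1 : ((List.range (5 - 1)).map fun j => W (Fin.ofNat 5 j) (Fin.ofNat 5 (j + 1))).sum =
      W 0 1 + (W 1 2 + (W 2 3 + (W 3 4 + 0))) := rfl
  have e2 : ((List.range 5).map fun a => len (Fin.ofNat 5 a)).sum =
      len 0 + (len 1 + (len 2 + (len 3 + (len 4 + 0)))) := rfl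
  rw [e1, e2] at h
  omega

end Vale.Agent.Lib.P333
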