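import Vale.Agent.Lib.P333.Tree6A
import Vale.Agent.Lib.P333.Tree6B
import Vale.Agent.Lib.P333.Tree6C
import Vale.Agent.Lib.P333.Tree6D
import Vale.Agent.Lib.P333.Tree6E
import Vale.Agent.Lib.P333.Tree6F

namespace Vale.Agent.Lib.P333

theorem fin6_elim {motive : Fin 6 → Prop} (h0 : motive 0) (h1 : motive 1) (h2 : motive 2)
    (h3 : motive 3) (h4 : motive 4) (h5 : motive 5) (i : Fin 6) : motive i := by
  fin_cases i <;> assumption

/-- The core inequality for complete greedy traces on six strings. -/
theorem core6 (W : Fin 6 → Fin 6 → ℕ) (len : Fin 6 → ℕ)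
    (hlen : ∀ a b, a ≠ b → W a b + 1 ≤ len a ∧ W a b + 1 ≤ len b)
    (htri : ∀ a b c, W a b + W b c ≤ len b + W a c)
    (hmonge : ∀ a b c d, W a d ≤ W a b → W c b ≤ W a b → W a d + W c b ≤ W a b + W c d)
    (E : List (Fin 6 × Fin 6)) (hE : IsGreedyTrace W E) (hlenE : E.length = 5) :
    2 * (W 0 1 + W 1 2 + W 2 3 + W 3 4 + W 4 5) ≤
      len 0 + len 1 + len 2 + len 3 + len 4 + len 5 + wsum W E := by
  have key : 2 * ((List.range (6 - 1)).map fun j => W (Fin.ofNat 6 j) (Fin.ofNat 6 (j + 1))).sum ≤
      ((List.range 6).map fun a => len (Fin.ofNat 6 a)).sum + wsum W E := by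
    rcases List.eq_nil_or_concat' E with rfl | ⟨X, e, rfl⟩
    · simp at hlenE
    · obtain ⟨a, b⟩ := e
      have hv : valid [] a b = true := (trace_append W X [(a, b)] hE).2.1
      have hl : (X ++ [(a, b)]).length + 1 = 6 := by omega
      clear hlenE
      induction a using fin6_elim <;> induction b using fin6_elim
      · exact absurd hv (by decide)
      · exact cert_core_edge (by norm_num) W len hlen htri hmonge 0 1 tree6_0_1
          tree6_0_1_ok X hE hl
      · exact cert_core_edge (by norm_num) W len hlen htri hmonge 0 2 tree6_0_2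
          tree6_0_2_ok X hE hl
      · exact cert_core_edge (by norm_num) W len hlen htri hmonge 0 3 tree6_0_3
          tree6_0_3_ok X hE hl
      · exact cert_core_edge (by norm_num) W len hlen htri hmonge 0 4 tree6_0_4
          tree6_0_4_ok X hE hl
      · exact cert_core_edge (by norm_num) W len hlen htri hmonge 0 5 tree6_0_5
          tree6_0_5_ok X hE hl
      · exact cert_core_edge (by norm_num) W len hlen htri hmonge 1 0 tree6_1_0
          tree6_1_0_ok X hE hl
      · exact absurd hv (by decide)
      · exact cert_core_edge (by norm_num) W len hlen htri hmonge 1 2 tree6_1_2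
          tree6_1_2_ok X hE hl
      · exact cert_core_edge (by norm_num) W len hlen htri hmonge 1 3 tree6_1_3
          tree6_1_3_ok X hE hl
      · exact cert_core_edge (by norm_num) W len hlen htri hmonge 1 4 tree6_1_4
          tree6_1_4_ok X hE hl
      · exact cert_core_edge (by norm_num) W len hlen htri hmonge 1 5 tree6_1_5
          tree6_1_5_ok X hE hl
      · exact cert_core_edge (by norm_num) W len hlen htri hmonge 2 0 tree6_2_0
          tree6_2_0_ok X hE hl
      · exact cert_core_edge (by norm_num) W len hlen htri hmonge 2 1 tree6_2_1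
          tree6_2_1_ok X hE hl
      · exact absurd hv (by decide)
      · exact cert_core_edge (by norm_num) W len hlen htri hmonge 2 3 tree6_2_3
          tree6_2_3_ok X hE hl
      · exact cert_core_edge (by norm_num) W len hlen htri hmonge 2 4 tree6_2_4
          tree6_2_4_ok X hE hl
      · exact cert_core_edge (by norm_num) W len hlen htri hmonge 2 5 tree6_2_5
          tree6_2_5_ok X hE hl
      · exact cert_core_edge (by norm_num) W len hlen htri hmonge 3 0 tree6_3_0
          tree6_3_0_ok X hE hl
      · exact cert_core_edge (by norm_num) W len hlen htri hmonge 3 1 tree6_3_1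
          tree6_3_1_ok X hE hl
      · exact cert_core_edge (by norm_num) W len hlen htri hmonge 3 2 tree6_3_2
          tree6_3_2_ok X hE hl
      · exact absurd hv (by decide)
      · exact cert_core_edge (by norm_num) W len hlen htri hmonge 3 4 tree6_3_4
          tree6_3_4_ok X hE hl
      · exact cert_core_edge (by norm_num) W len hlen htri hmonge 3 5 tree6_3_5
          tree6_3_5_ok X hE hl
      · exact cert_core_edge (by norm_num) W len hlen htri hmonge 4 0 tree6_4_0
          tree6_4_0_ok X hE hl
      · exact cert_core_edge (by norm_num) W len hlen htri hmonge 4 1 tree6_4_1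
          tree6_4_1_ok X hE hl
      · exact cert_core_edge (by norm_num) W len hlen htri hmonge 4 2 tree6_4_2
          tree6_4_2_ok X hE hl
      · exact cert_core_edge (by norm_num) W len hlen htri hmonge 4 3 tree6_4_3
          tree6_4_3_ok X hE hl
      · exact absurd hv (by decide)
      · exact cert_core_edge (by norm_num) W len hlen htri hmonge 4 5 tree6_4_5
          tree6_4_5_ok X hE hl
      · exact cert_core_edge (by norm_num) W len hlen htri hmonge 5 0 tree6_5_0
          tree6_5_0_ok X hE hl
      · exact cert_core_edge (by norm_num) W len hlen htri hmonge 5 1 tree6_5_1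
          tree6_5_1_ok X hE hl
      · exact cert_core_edge (by norm_num) W len hlen htri hmonge 5 2 tree6_5_2
          tree6_5_2_ok X hE hl
      · exact cert_core_edge (by norm_num) W len hlen htri hmonge 5 3 tree6_5_3
          tree6_5_3_ok X hE hl
      · exact cert_core_edge (by norm_num) W len hlen htri hmonge 5 4 tree6_5_4
          tree6_5_4_ok X hE hl
      · exact absurd hv (by decide)
  have e1 : ((List.range (6 - 1)).map fun j => W (Fin.ofNat 6 j) (Fin.ofNat 6 (j + 1))).sum =
      W 0 1 + (W 1 2 + (W 2 3 + (W 3 4 + (W 4 5 + 0)))) := rfl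
  have e2 : ((List.range 6).map fun a => len (Fin.ofNat 6 a)).sum =
      len 0 + (len 1 + (len 2 + (len 3 + (len 4 + (len 5 + 0))))) := rfl
  rw [e1, e2] at key
  omega

end Vale.Agent.Lib.P333
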