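import Mathlib

namespace Vale.Agent.Lib.P333

variable {α : Type*} [DecidableEq α]

/-- `T` is a common superstring of the family `S`: every member is a contiguous substring. -/
def IsCommonSuperstring (S : Finset (List α)) (T : List α) : Prop :=
  ∀ s ∈ S, s <:+: T

/-- Overlap: the largest `k` such that the last `k` symbols of `s` are the first `k` symbols of `t`. -/
def ov (s t : List α) : ℕ :=
  Nat.findGreatest (fun k => s.drop (s.length - k) = t.take k) (min s.length t.length)

/-- The merge of `s` and `t` along their overlap. -/
def merge (s t : List α) : List α :=
  s ++ t.drop (ov s t)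

/-- Discard the strings that are substrings of other strings of the family. -/
def discard (S : Finset (List α)) : Finset (List α) :=
  S.filter (fun s => ∀ t ∈ S, s <:+: t → s = t)

/-- One greedy step: two distinct strings with a longest overlap are replaced by their merge. -/
def GreedyStep (F F' : Finset (List α)) : Prop :=
  ∃ s ∈ F, ∃ t ∈ F, s ≠ t ∧ (∀ p ∈ F, ∀ q ∈ F, p ≠ q → ov p q ≤ ov s t) ∧
    F' = insert (merge s t) ((F.erase s).erase t)

/-- `T` is a possible output of the greedy algorithm on `S` (ties broken arbitrarily). -/
def GreedyOutput (S : Finset (List α)) (T : List α) : Prop :=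
  Relation.ReflTransGen GreedyStep (discard S) {T}

end Vale.Agent.Lib.P333
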