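import Mathlib

namespace Vale.Agent.Lib.P333

variable {β : Type*} [DecidableEq β]

/-- `conn E x y`: `x` is joined to `y` by a chain of edges of `E` (newest edge first). -/
def conn : List (β × β) → β → β → Bool
  | [], _, _ => false
  | e :: E, x, y => conn E x y || ((x == e.1 || conn E x e.1) && (y == e.2 || conn E e.2 y))

/-- (p, q) may be added to the path system `E`: `p` has no outgoing edge, `q` has no
incoming edge, and no chain of edges leads from `q` to `p`. -/
def valid (E : List (β × β)) (p q : β) : Bool :=
  (p != q) && E.all (fun e => e.1 != p) && E.all (fun e => e.2 != q) && !(conn E q p)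

/-- A greedy trace (newest edge first): each edge is valid when chosen and has the largest
weight among the valid edges. -/
def IsGreedyTrace (W : β → β → ℕ) : List (β × β) → Prop
  | [] => True
  | e :: E => IsGreedyTrace W E ∧ valid E e.1 e.2 = true ∧
      ∀ p q, valid E p q = true → W p q ≤ W e.1 e.2

/-- Total weight of a list of edges. -/
def wsum (W : β → β → ℕ) : List (β × β) → ℕ
  | [] => 0
  | e :: E => W e.1 e.2 + wsum W E

lemma valid_iff (E : List (β × β)) (p q : β) :
    valid E p q = true ↔ p ≠ q ∧ (∀ e ∈ E, e.1 ≠ p) ∧ (∀ e ∈ E, e.2 ≠ q) ∧ conn E q p = false := by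
  simp [valid, List.all_eq_true, and_assoc]

lemma conn_cons (e : β × β) (E : List (β × β)) (x y : β) :
    conn (e :: E) x y = true ↔
      conn E x y = true ∨ ((x = e.1 ∨ conn E x e.1 = true) ∧ (y = e.2 ∨ conn E e.2 y = true)) := by
  simp [conn]

end Vale.Agent.Lib.P333
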