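import Vale.Agent.Lib.P333.Straddle
import Vale.Agent.Lib.P333.Trace

namespace Vale.Agent.Lib.P333

variable {α : Type*} [DecidableEq α] {ι : Type*} [DecidableEq ι]

/-- The invariant linking a greedy run on strings with a greedy trace on indices. -/
structure SimInv (a : ι → List α) (L0 : ℕ) (F : Finset (List α)) (fst lst : List α → ι)
    (blk : ι → List α) (E : List (ι × ι)) : Prop where
  pre : ∀ X ∈ F, a (fst X) <+: X
  suf : ∀ X ∈ F, a (lst X) <:+ X
  blk_fst : ∀ X ∈ F, blk (fst X) = X
  blk_lst : ∀ X ∈ F, blk (lst X) = X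
  nf_lst : ∀ X ∈ F, ∀ Y ∈ F, X ≠ Y → ¬ a (lst X) <:+: Y
  nf_fst : ∀ X ∈ F, ∀ Y ∈ F, X ≠ Y → ¬ a (fst X) <:+: Y
  ex_lst : ∀ i, (∀ e ∈ E, e.1 ≠ i) → ∃ X ∈ F, lst X = i
  ex_fst : ∀ i, (∀ e ∈ E, e.2 ≠ i) → ∃ X ∈ F, fst X = i
  conn_blk : ∀ X ∈ F, fst X ≠ lst X → conn E (fst X) (lst X) = true
  not_tail : ∀ X ∈ F, ∀ e ∈ E, e.1 ≠ lst X
  not_head : ∀ X ∈ F, ∀ e ∈ E, e.2 ≠ fst X
  conn_same : ∀ i j, conn E i j = true → blk i = blk j
  trace : IsGreedyTrace (fun i j => ov (a i) (a j)) E
  len : total F + wsum (fun i j => ov (a i) (a j)) E = L0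

lemma sim_step {a : ι → List α} {L0 : ℕ} {F F1 : Finset (List α)} {fst lst : List α → ι}
    {blk : ι → List α} {E : List (ι × ι)} (hinv : SimInv a L0 F fst lst blk E)
    (hstep : GreedyStep F F1) :
    ∃ (fst' lst' : List α → ι) (blk' : ι → List α) (e : ι × ι),
      SimInv a L0 F1 fst' lst' blk' (e :: E) ∧ F1.card + 1 = F.card := by
  classical
  obtain ⟨X, hX, Y, hY, hXY, hmax, rfl⟩ := hstep
  have hov : ov X Y = ov (a (lst X)) (a (fst Y)) :=
    le_antisymm
      (ov_le_of_not_infix (hinv.suf X hX) (hinv.pre Y hY) (hinv.nf_lst X hX Y hY hXY)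
        (hinv.nf_fst Y hY X hX hXY.symm))
      (ov_mono (hinv.suf X hX) (hinv.pre Y hY))
  have hG : ∀ U, U ∈ (F.erase X).erase Y ↔ U ∈ F ∧ U ≠ X ∧ U ≠ Y := by
    intro U
    simp only [Finset.mem_erase]
    tauto
  have hZG : merge X Y ∉ (F.erase X).erase Y := by
    intro h
    obtain ⟨hZF, hZX, -⟩ := (hG _).mp h
    exact hinv.nf_lst X hX _ hZF (Ne.symm hZX)
      ((hinv.suf X hX).isInfix.trans (prefix_merge X Y).isInfix)
  have hGZ : ∀ U, U ∈ (F.erase X).erase Y → U ≠ merge X Y := fun U hU h => hZG (h ▸ hU)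
  have hcard : ((F.erase X).erase Y).card + 2 = F.card := by
    have hY' : Y ∈ F.erase X := Finset.mem_erase.mpr ⟨hXY.symm, hY⟩
    have e1 := Finset.card_erase_of_mem hY'
    have e2 := Finset.card_erase_of_mem hX
    have e3 := Finset.card_pos.mpr ⟨X, hX⟩
    have e4 := Finset.card_pos.mpr ⟨Y, hY'⟩
    omega
  have hmem : ∀ U, U ∈ insert (merge X Y) ((F.erase X).erase Y) ↔
      U = merge X Y ∨ (U ∈ F ∧ U ≠ X ∧ U ≠ Y) := by
    intro U
    rw [Finset.mem_insert, hG]
  have hlstXY : lst X ≠ lst Y := by
    intro h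
    have := hinv.blk_lst X hX
    rw [h, hinv.blk_lst Y hY] at this
    exact hXY this.symm
  have hfstXY : fst X ≠ fst Y := by
    intro h
    have := hinv.blk_fst X hX
    rw [h, hinv.blk_fst Y hY] at this
    exact hXY this.symm
  refine ⟨Function.update fst (merge X Y) (fst X), Function.update lst (merge X Y) (lst Y),
    fun i => if blk i = X ∨ blk i = Y then merge X Y else blk i, (lst X, fst Y), ?_, ?_⟩
  swap
  · rw [Finset.card_insert_of_notMem hZG]; omega
  have hfZ : Function.update fst (merge X Y) (fst X) (merge X Y) = fst X :=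
    Function.update_self _ _ _
  have hlZ : Function.update lst (merge X Y) (lst Y) (merge X Y) = lst Y :=
    Function.update_self _ _ _
  have hfU : ∀ U, U ≠ merge X Y → Function.update fst (merge X Y) (fst X) U = fst U :=
    fun U hU => Function.update_of_ne hU _ _
  have hlU : ∀ U, U ≠ merge X Y → Function.update lst (merge X Y) (lst Y) U = lst U :=
    fun U hU => Function.update_of_ne hU _ _
  have hne : ∀ U, (U ∈ F ∧ U ≠ X ∧ U ≠ Y) → U ≠ merge X Y :=
    fun U hU => hGZ U ((hG U).mpr hU)
  constructor
  · -- pre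
    intro U hU
    rcases (hmem U).mp hU with rfl | hU'
    · rw [hfZ]; exact (hinv.pre X hX).trans (prefix_merge X Y)
    · rw [hfU U (hne U hU')]; exact hinv.pre U hU'.1
  · -- suf
    intro U hU
    rcases (hmem U).mp hU with rfl | hU'
    · rw [hlZ]; exact (hinv.suf Y hY).trans (suffix_merge X Y)
    · rw [hlU U (hne U hU')]; exact hinv.suf U hU'.1
  · -- blk_fst
    intro U hU
    rcases (hmem U).mp hU with rfl | hU'
    · rw [hfZ]; simp only [hinv.blk_fst X hX, true_or, if_true]
    · rw [hfU U (hne U hU')]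
      have hb := hinv.blk_fst U hU'.1
      simp only [hb, hU'.2.1, hU'.2.2, or_self, if_false]
  · -- blk_lst
    intro U hU
    rcases (hmem U).mp hU with rfl | hU'
    · rw [hlZ]; simp only [hinv.blk_lst Y hY, or_true, if_true]
    · rw [hlU U (hne U hU')]
      have hb := hinv.blk_lst U hU'.1
      simp only [hb, hU'.2.1, hU'.2.2, or_self, if_false]
  · -- nf_lst
    intro U hU V hV hUV
    rcases (hmem U).mp hU with rfl | hU'
    · rcases (hmem V).mp hV with rfl | hV'
      · exact absurd rfl hUV
      · rw [hlZ]; exact hinv.nf_lst Y hY V hV'.1 (Ne.symm hV'.2.2)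
    · rw [hlU U (hne U hU')]
      rcases (hmem V).mp hV with rfl | hV'
      · intro h
        have hs := straddle h (hinv.nf_lst U hU'.1 X hX hU'.2.1) (hinv.nf_lst U hU'.1 Y hY hU'.2.2)
        have h1 : ov (a (lst U)) Y ≤ ov U Y := ov_mono (hinv.suf U hU'.1) (List.prefix_refl Y)
        have h2 := hmax U hU'.1 Y hY hU'.2.2
        omega
      · exact hinv.nf_lst U hU'.1 V hV'.1 hUV
  · -- nf_fst
    intro U hU V hV hUV
    rcases (hmem U).mp hU with rfl | hU'
    · rcases (hmem V).mp hV with rfl | hV'
      · exact absurd rfl hUV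
      · rw [hfZ]; exact hinv.nf_fst X hX V hV'.1 (Ne.symm hV'.2.1)
    · rw [hfU U (hne U hU')]
      rcases (hmem V).mp hV with rfl | hV'
      · intro h
        have hs := straddle h (hinv.nf_fst U hU'.1 X hX hU'.2.1) (hinv.nf_fst U hU'.1 Y hY hU'.2.2)
        have h1 : ov X (a (fst U)) ≤ ov X U := ov_mono (List.suffix_refl X) (hinv.pre U hU'.1)
        have h2 := hmax X hX U hU'.1 (Ne.symm hU'.2.1)
        omega
      · exact hinv.nf_fst U hU'.1 V hV'.1 hUV
  · -- ex_lst
    intro i hi
    have hi1 : lst X ≠ i := hi (lst X, fst Y) (List.mem_cons_self)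
    obtain ⟨V, hV, hVi⟩ := hinv.ex_lst i (fun e he => hi e (List.mem_cons_of_mem _ he))
    have hVX : V ≠ X := fun h => hi1 (h ▸ hVi)
    by_cases hVY : V = Y
    · refine ⟨merge X Y, Finset.mem_insert_self _ _, ?_⟩
      rw [hlZ, ← hVY, hVi]
    · refine ⟨V, (hmem V).mpr (Or.inr ⟨hV, hVX, hVY⟩), ?_⟩
      rw [hlU V (hne V ⟨hV, hVX, hVY⟩), hVi]
  · -- ex_fst
    intro i hi
    have hi1 : fst Y ≠ i := hi (lst X, fst Y) (List.mem_cons_self)
    obtain ⟨V, hV, hVi⟩ := hinv.ex_fst i (fun e he => hi e (List.mem_cons_of_mem _ he))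
    have hVY : V ≠ Y := fun h => hi1 (h ▸ hVi)
    by_cases hVX : V = X
    · refine ⟨merge X Y, Finset.mem_insert_self _ _, ?_⟩
      rw [hfZ, ← hVX, hVi]
    · refine ⟨V, (hmem V).mpr (Or.inr ⟨hV, hVX, hVY⟩), ?_⟩
      rw [hfU V (hne V ⟨hV, hVX, hVY⟩), hVi]
  · -- conn_blk
    intro U hU
    rcases (hmem U).mp hU with rfl | hU'
    · rw [hfZ, hlZ]
      intro _
      rw [conn_cons]
      right
      constructor
      · by_cases h : fst X = lst X
        · exact Or.inl h
        · exact Or.inr (hinv.conn_blk X hX h)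
      · by_cases h : fst Y = lst Y
        · exact Or.inl h.symm
        · exact Or.inr (hinv.conn_blk Y hY h)
    · rw [hfU U (hne U hU'), hlU U (hne U hU')]
      intro h
      rw [conn_cons]
      exact Or.inl (hinv.conn_blk U hU'.1 h)
  · -- not_tail
    intro U hU e he
    rcases List.mem_cons.mp he with rfl | he'
    · rcases (hmem U).mp hU with rfl | hU'
      · rw [hlZ]; exact hlstXY
      · rw [hlU U (hne U hU')]
        intro h
        have := hinv.blk_lst X hX
        rw [show lst X = lst U from h, hinv.blk_lst U hU'.1] at this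
        exact hU'.2.1 this
    · rcases (hmem U).mp hU with rfl | hU'
      · rw [hlZ]; exact hinv.not_tail Y hY e he'
      · rw [hlU U (hne U hU')]; exact hinv.not_tail U hU'.1 e he'
  · -- not_head
    intro U hU e he
    rcases List.mem_cons.mp he with rfl | he'
    · rcases (hmem U).mp hU with rfl | hU'
      · rw [hfZ]; exact hfstXY.symm
      · rw [hfU U (hne U hU')]
        intro h
        have := hinv.blk_fst Y hY
        rw [show fst Y = fst U from h, hinv.blk_fst U hU'.1] at this
        exact hU'.2.2 this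
    · rcases (hmem U).mp hU with rfl | hU'
      · rw [hfZ]; exact hinv.not_head X hX e he'
      · rw [hfU U (hne U hU')]; exact hinv.not_head U hU'.1 e he'
  · -- conn_same
    intro i j hij
    rw [conn_cons] at hij
    rcases hij with h | ⟨h1, h2⟩
    · have := hinv.conn_same i j h
      simp only [this]
    · have hi : blk i = X := by
        rcases h1 with h1 | h1
        · rw [h1]; exact hinv.blk_lst X hX
        · rw [hinv.conn_same i _ h1]; exact hinv.blk_lst X hX
      have hj : blk j = Y := by
        rcases h2 with h2 | h2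
        · rw [h2]; exact hinv.blk_fst Y hY
        · rw [← hinv.conn_same _ j h2]; exact hinv.blk_fst Y hY
      simp only [hi, hj, true_or, or_true, if_true]
  · -- trace
    refine ⟨hinv.trace, ?_, ?_⟩
    · rw [valid_iff]
      refine ⟨?_, fun e he => hinv.not_tail X hX e he, fun e he => hinv.not_head Y hY e he, ?_⟩
      · intro h
        apply hinv.nf_lst X hX Y hY hXY
        show a (lst X) <:+: Y
        rw [show lst X = fst Y from h]
        exact (hinv.pre Y hY).isInfix
      · by_contra hc
        have hc' : conn E (fst Y) (lst X) = true := by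
          cases hcc : conn E (fst Y) (lst X)
          · exact absurd hcc hc
          · rfl
        have := hinv.conn_same _ _ hc'
        rw [hinv.blk_fst Y hY, hinv.blk_lst X hX] at this
        exact hXY this.symm
    · intro p q hpq
      rw [valid_iff] at hpq
      obtain ⟨hne', hp, hq, hc⟩ := hpq
      obtain ⟨U, hU, hUp⟩ := hinv.ex_lst p hp
      obtain ⟨V, hV, hVq⟩ := hinv.ex_fst q hq
      have hUV : U ≠ V := by
        intro h
        subst h
        have := hinv.conn_blk U hU (by rw [hUp, hVq]; exact hne'.symm)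
        rw [hUp, hVq, hc] at this
        exact Bool.false_ne_true this
      have h1 : ov (a p) (a q) ≤ ov U V := by
        rw [← hUp, ← hVq]
        exact ov_mono (hinv.suf U hU) (hinv.pre V hV)
      have h2 := hmax U hU V hV hUV
      show ov (a p) (a q) ≤ ov (a (lst X)) (a (fst Y))
      omega
  · -- len
    have h1 : total (insert (merge X Y) ((F.erase X).erase Y))
        = (merge X Y).length + total ((F.erase X).erase Y) := by
      unfold total
      rw [Finset.sum_insert hZG]
    have h2 := total_erase_erase hX hY hXY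
    have h3 := merge_length X Y
    have h4 := hinv.len
    show total (insert (merge X Y) ((F.erase X).erase Y))
      + (ov (a (lst X)) (a (fst Y)) + wsum (fun i j => ov (a i) (a j)) E) = L0
    omega

end Vale.Agent.Lib.P333

namespace Vale.Agent.Lib.P333

variable {α : Type*} [DecidableEq α] {ι : Type*} [DecidableEq ι]

theorem sim_run {a : ι → List α} {L0 : ℕ} {T : List α} {F : Finset (List α)}
    (hrun : Relation.ReflTransGen GreedyStep F {T}) :
    ∀ (fst lst : List α → ι) (blk : ι → List α) (E : List (ι × ι)),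
      SimInv a L0 F fst lst blk E →
      ∃ E' : List (ι × ι), IsGreedyTrace (fun i j => ov (a i) (a j)) E' ∧
        T.length + wsum (fun i j => ov (a i) (a j)) E' = L0 ∧
        E'.length + 1 = E.length + F.card := by
  induction hrun using Relation.ReflTransGen.head_induction_on with
  | refl =>
    intro fst lst blk E hinv
    refine ⟨E, hinv.trace, ?_, by simp⟩
    have := hinv.len
    rw [total_singleton] at this
    exact this
  | head hstep hrest ih =>
    intro fst lst blk E hinv
    obtain ⟨fst', lst', blk', e, hinv', hcard⟩ := sim_step hinv hstep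
    obtain ⟨E', h1, h2, h3⟩ := ih fst' lst' blk' (e :: E) hinv'
    refine ⟨E', h1, h2, ?_⟩
    simp only [List.length_cons] at h3
    omega

/-- A greedy run on a factor-free family of strings, enumerated by `a`, yields a greedy trace
on the index type for the overlap weights, of the same total weight. -/
theorem sim_init [Fintype ι] (a : ι → List α) (ha : ∀ i j, a i <:+: a j → i = j)
    {T : List α} (hrun : Relation.ReflTransGen GreedyStep (Finset.univ.image a) {T}) :
    ∃ E : List (ι × ι), IsGreedyTrace (fun i j => ov (a i) (a j)) E ∧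
      T.length + wsum (fun i j => ov (a i) (a j)) E = ∑ i, (a i).length ∧
      E.length + 1 = Fintype.card ι := by
  classical
  have hinj : Function.Injective a := fun i j h => ha i j (h ▸ List.infix_refl _)
  have hne : Nonempty ι := by
    by_contra hcon
    rw [not_nonempty_iff] at hcon
    have hempty : (Finset.univ.image a : Finset (List α)) = ∅ := by simp
    rw [hempty] at hrun
    rcases hrun.cases_head with h | ⟨F1, hstep, -⟩
    · exact absurd h (by simp)
    · obtain ⟨s, hs, -⟩ := hstep
      simp at hs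
  have hleft : ∀ i, Function.invFun a (a i) = i := Function.leftInverse_invFun hinj
  have hinv : SimInv a (∑ i, (a i).length) (Finset.univ.image a) (Function.invFun a)
      (Function.invFun a) a [] := by
    constructor
    · intro X hX
      obtain ⟨i, -, rfl⟩ := Finset.mem_image.mp hX
      rw [hleft]
    · intro X hX
      obtain ⟨i, -, rfl⟩ := Finset.mem_image.mp hX
      rw [hleft]
    · intro X hX
      obtain ⟨i, -, rfl⟩ := Finset.mem_image.mp hX
      rw [hleft]
    · intro X hX
      obtain ⟨i, -, rfl⟩ := Finset.mem_image.mp hX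
      rw [hleft]
    · intro X hX Y hY hXY
      obtain ⟨i, -, rfl⟩ := Finset.mem_image.mp hX
      obtain ⟨j, -, rfl⟩ := Finset.mem_image.mp hY
      rw [hleft]
      intro h
      exact hXY (congrArg a (ha i j h))
    · intro X hX Y hY hXY
      obtain ⟨i, -, rfl⟩ := Finset.mem_image.mp hX
      obtain ⟨j, -, rfl⟩ := Finset.mem_image.mp hY
      rw [hleft]
      intro h
      exact hXY (congrArg a (ha i j h))
    · intro i _
      exact ⟨a i, Finset.mem_image_of_mem a (Finset.mem_univ i), hleft i⟩
    · intro i _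
      exact ⟨a i, Finset.mem_image_of_mem a (Finset.mem_univ i), hleft i⟩
    · intro X _ h
      exact absurd rfl h
    · intro X _ e he
      simp at he
    · intro X _ e he
      simp at he
    · intro i j h
      simp [conn] at h
    · trivial
    · unfold total
      rw [Finset.sum_image (fun i _ j _ h => hinj h)]
      simp [wsum]
  obtain ⟨E, h1, h2, h3⟩ := sim_run hrun _ _ _ _ hinv
  refine ⟨E, h1, h2, ?_⟩
  rw [Finset.card_image_of_injective _ hinj, Finset.card_univ] at h3
  simpa using h3

end Vale.Agent.Lib.P333
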