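import Vale.Agent.Lib.P333.Greedy

namespace Vale.Agent.Lib.P333

variable {α : Type*} [DecidableEq α]

/-- Overlaps are monotone under extending the left string to the left and the right string
to the right. -/
lemma ov_mono {s S t T : List α} (hs : s <:+ S) (ht : t <+: T) : ov s t ≤ ov S T := by
  obtain ⟨A, rfl⟩ := hs
  obtain ⟨B, rfl⟩ := ht
  have h := ov_spec s t
  have h1 := ov_le_left s t
  have h2 := ov_le_right s t
  apply le_ov
  · simp only [List.length_append]; omega
  · simp only [List.length_append]; omega
  · rw [List.take_append_of_le_length h2, ← h, List.drop_append, List.length_append]
    have e1 : A.length + s.length - ov s t - A.length = s.length - ov s t := by omega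
    have e2 : List.drop (A.length + s.length - ov s t) A = [] := by
      apply List.drop_of_length_le; omega
    rw [e1, e2, List.nil_append]

/-- If the end piece `s` of `S` does not occur in `T` and the start piece `t` of `T` does not
occur in `S`, the overlap of `S` and `T` is an overlap of `s` and `t`. -/
lemma ov_le_of_not_infix {s S t T : List α} (hs : s <:+ S) (ht : t <+: T)
    (h1 : ¬ s <:+: T) (h2 : ¬ t <:+: S) : ov S T ≤ ov s t := by
  have h := ov_spec S T
  have l1 := ov_le_left S T
  have l2 := ov_le_right S T
  obtain ⟨A, rfl⟩ := hs
  obtain ⟨B, rfl⟩ := ht
  simp only [List.length_append] at l1 l2 h
  have c1 : ov (A ++ s) (t ++ B) ≤ s.length := by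
    by_contra hcon
    rw [not_le] at hcon
    apply h1
    have e : List.drop (A.length + s.length - ov (A ++ s) (t ++ B)) (A ++ s)
        = List.drop (A.length + s.length - ov (A ++ s) (t ++ B)) A ++ s := by
      apply List.drop_append_of_le_length; omega
    have hsuf : s <:+ List.take (ov (A ++ s) (t ++ B)) (t ++ B) := by
      rw [← h, e]; exact List.suffix_append _ _
    exact hsuf.isInfix.trans (List.take_prefix _ _).isInfix
  have c2 : ov (A ++ s) (t ++ B) ≤ t.length := by
    by_contra hcon
    rw [not_le] at hcon
    apply h2
    have e : List.take (ov (A ++ s) (t ++ B)) (t ++ B)
        = t ++ List.take (ov (A ++ s) (t ++ B) - t.length) B := by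
      rw [List.take_append]
      congr 1
      apply List.take_of_length_le; omega
    have hpre : t <+: List.drop (A.length + s.length - ov (A ++ s) (t ++ B)) (A ++ s) := by
      rw [h, e]; exact List.prefix_append _ _
    exact hpre.isInfix.trans (List.drop_suffix _ _).isInfix
  apply le_ov c1 c2
  rw [List.take_append_of_le_length c2] at h
  rw [← h, List.drop_append]
  have e1 : A.length + s.length - ov (A ++ s) (t ++ B) - A.length
      = s.length - ov (A ++ s) (t ++ B) := by omega
  have e2 : List.drop (A.length + s.length - ov (A ++ s) (t ++ B)) A = [] := by
    apply List.drop_of_length_le; omega
  rw [e1, e2, List.nil_append]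

/-- If `p` occurs in the merge of `A` and `B` but neither in `A` nor in `B`, then `p` has a
longer overlap with `A` on its left and with `B` on its right than `A` has with `B`. -/
lemma straddle {A B p : List α} (hp : p <:+: merge A B) (hA : ¬ p <:+: A) (hB : ¬ p <:+: B) :
    ov A B < ov A p ∧ ov A B < ov p B := by
  obtain ⟨i, hocc, hlen⟩ := exists_occ hp
  have hk1 := ov_le_left A B
  have hk2 := ov_le_right A B
  have hW : (merge A B).length + ov A B = A.length + B.length := merge_length A B
  -- the occurrence starts strictly before the part of `A` not covered by `B`
  have ha : i + ov A B < A.length := by
    by_contra hcon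
    rw [not_lt] at hcon
    apply hB
    have e0 : List.drop i (List.take (A.length - ov A B) A) = [] := by
      apply List.drop_of_length_le
      rw [List.length_take]; omega
    have e1 : min (A.length - ov A B) A.length = A.length - ov A B := by omega
    have e : p = ((B.drop (i - (A.length - ov A B))).take p.length) := by
      calc p = ((merge A B).drop i).take p.length := hocc.symm
        _ = ((B.drop (i - (A.length - ov A B))).take p.length) := by
          rw [merge_eq, List.drop_append, e0, List.nil_append, List.length_take, e1]
    rw [e]
    exact (List.take_prefix _ _).isInfix.trans (List.drop_suffix _ _).isInfix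
  -- the occurrence ends strictly after `A`
  have hb : A.length < i + p.length := by
    by_contra hcon
    rw [not_lt] at hcon
    apply hA
    have e : p = ((A.drop i).take p.length) := by
      have e0 : ((merge A B).drop i).take p.length = ((A.drop i).take p.length) := by
        unfold merge
        rw [List.drop_append, List.take_append]
        have e1 : p.length - (List.drop i A).length = 0 := by
          rw [List.length_drop]; omega
        rw [e1]; simp
      rw [← e0, hocc]
    rw [e]
    exact (List.take_prefix _ _).isInfix.trans (List.drop_suffix _ _).isInfix
  constructor
  · -- `A.length - i` is an overlap of `A` and `p`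
    have key : A.length - i ≤ ov A p := by
      apply le_ov
      · omega
      · omega
      · have e0 : A.length - (A.length - i) = i := by omega
        rw [e0]
        have e1 : p.take (A.length - i) = ((merge A B).drop i).take (A.length - i) := by
          calc p.take (A.length - i)
              = (((merge A B).drop i).take p.length).take (A.length - i) := by rw [hocc]
            _ = ((merge A B).drop i).take (A.length - i) := by
              rw [List.take_take]; congr 1; omega
        rw [e1]
        unfold merge
        rw [List.drop_append, List.take_append]
        have e2 : A.length - i - (List.drop i A).length = 0 := by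
          rw [List.length_drop]; omega
        have e3 : List.take (A.length - i) (List.drop i A) = List.drop i A := by
          apply List.take_of_length_le
          rw [List.length_drop]
        rw [e2, e3]; simp
    omega
  · -- `i + p.length - (A.length - ov A B)` is an overlap of `p` and `B`
    have key : i + p.length - (A.length - ov A B) ≤ ov p B := by
      apply le_ov
      · omega
      · omega
      · have e0 : p.drop (p.length - (i + p.length - (A.length - ov A B)))
            = ((merge A B).drop (A.length - ov A B)).take
                (i + p.length - (A.length - ov A B)) := by
          calc p.drop (p.length - (i + p.length - (A.length - ov A B)))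
              = (((merge A B).drop i).take p.length).drop
                  (p.length - (i + p.length - (A.length - ov A B))) := by rw [hocc]
            _ = ((merge A B).drop (A.length - ov A B)).take
                  (i + p.length - (A.length - ov A B)) := by
              rw [List.drop_take, List.drop_drop]
              congr 1
              · omega
              · congr 1; omega
        rw [e0, merge_eq, List.drop_append]
        have e1 : List.drop (A.length - ov A B) (List.take (A.length - ov A B) A) = [] := by
          apply List.drop_of_length_le
          rw [List.length_take]; omega
        have e2 : A.length - ov A B - (List.take (A.length - ov A B) A).length = 0 := by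
          rw [List.length_take]; omega
        rw [e1, e2]; simp
    omega

/-- Triple inequality: if the overlaps of `a`, `b` and of `b`, `c` together exceed `b`,
the excess is an overlap of `a` and `c`. -/
lemma ov_triple (a b c : List α) : ov a b + ov b c ≤ b.length + ov a c := by
  by_cases hle : ov a b + ov b c ≤ b.length
  · omega
  rw [not_le] at hle
  have e1 := ov_spec a b
  have e2 := ov_spec b c
  have l1 := ov_le_left a b
  have l2 := ov_le_right a b
  have l3 := ov_le_left b c
  have l4 := ov_le_right b c
  have key : ov a b + ov b c - b.length ≤ ov a c := by
    apply le_ov
    · omega
    · omega
    · -- last `e` symbols of `a` = `b[|b|-j, i)` = first `e` symbols of `c`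
      have ha : a.drop (a.length - (ov a b + ov b c - b.length))
          = (b.take (ov a b)).drop (b.length - ov b c) := by
        rw [← e1, List.drop_drop]
        congr 1; omega
      have hc : c.take (ov a b + ov b c - b.length)
          = (b.drop (b.length - ov b c)).take (ov a b + ov b c - b.length) := by
        rw [e2, List.take_take]
        congr 1; omega
      rw [ha, hc, List.drop_take]
      congr 1; omega
  omega

end Vale.Agent.Lib.P333
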