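import Vale.Agent.Lib.P333.Chain

namespace Vale.Agent.Lib.P333

variable {α : Type*} [DecidableEq α]

/-- Total length of a family. -/
def total (F : Finset (List α)) : ℕ := ∑ s ∈ F, s.length

/-- No member is a substring of another member. -/
def FactorFree (F : Finset (List α)) : Prop := ∀ s ∈ F, ∀ t ∈ F, s <:+: t → s = t

lemma total_insert_le (w : List α) (G : Finset (List α)) :
    total (insert w G) ≤ w.length + total G := by
  unfold total
  by_cases h : w ∈ G
  · rw [Finset.insert_eq_of_mem h]; omega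
  · rw [Finset.sum_insert h]

lemma total_erase_erase {F : Finset (List α)} {s t : List α} (hs : s ∈ F) (ht : t ∈ F)
    (hne : s ≠ t) : s.length + t.length + total ((F.erase s).erase t) = total F := by
  unfold total
  have h1 := Finset.add_sum_erase F (fun x => x.length) hs
  have ht' : t ∈ F.erase s := Finset.mem_erase.mpr ⟨hne.symm, ht⟩
  have h2 := Finset.add_sum_erase (F.erase s) (fun x => x.length) ht'
  omega

lemma step_total {F F' : Finset (List α)} (h : GreedyStep F F') :
    ∃ s ∈ F, ∃ t ∈ F, s ≠ t ∧ (∀ p ∈ F, ∀ q ∈ F, p ≠ q → ov p q ≤ ov s t) ∧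
      F' = insert (merge s t) ((F.erase s).erase t) ∧ total F' + ov s t ≤ total F := by
  obtain ⟨s, hs, t, ht, hne, hmax, rfl⟩ := h
  refine ⟨s, hs, t, ht, hne, hmax, rfl, ?_⟩
  have h1 := total_insert_le (merge s t) ((F.erase s).erase t)
  have h2 := total_erase_erase hs ht hne
  have h3 := merge_length s t
  omega

lemma run_total {F F' : Finset (List α)} (h : Relation.ReflTransGen GreedyStep F F') :
    total F' ≤ total F := by
  induction h with
  | refl => exact le_rfl
  | tail _ hstep ih =>
    obtain ⟨s, -, t, -, -, -, -, hle⟩ := step_total hstep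
    omega

lemma total_singleton (T : List α) : total ({T} : Finset (List α)) = T.length := by
  simp [total]

lemma one_step {F : Finset (List α)} {T : List α} (h2 : 2 ≤ F.card)
    (hrun : Relation.ReflTransGen GreedyStep F {T}) :
    ∃ s ∈ F, ∃ t ∈ F, s ≠ t ∧ (∀ p ∈ F, ∀ q ∈ F, p ≠ q → ov p q ≤ ov s t) ∧
      T.length + ov s t ≤ total F := by
  rcases hrun.cases_head with h | ⟨F1, hstep, hrun1⟩
  · rw [h] at h2; simp at h2
  obtain ⟨s, hs, t, ht, hne, hmax, -, htot1⟩ := step_total hstep
  refine ⟨s, hs, t, ht, hne, hmax, ?_⟩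
  have hT := run_total hrun1
  rw [total_singleton] at hT
  omega

lemma two_steps {F : Finset (List α)} {T : List α} (hff : FactorFree F) (h3 : 3 ≤ F.card)
    (hrun : Relation.ReflTransGen GreedyStep F {T}) :
    ∃ s ∈ F, ∃ t ∈ F, s ≠ t ∧ (∀ p ∈ F, ∀ q ∈ F, p ≠ q → ov p q ≤ ov s t) ∧
      ∃ g : ℕ, T.length + ov s t + g ≤ total F ∧
        ∀ p ∈ F, ∀ q ∈ F, p ≠ q → p ≠ s → q ≠ t → ¬ (p = t ∧ q = s) → ov p q ≤ g := by
  rcases hrun.cases_head with h | ⟨F1, hstep, hrun1⟩
  · rw [h] at h3; simp at h3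
  obtain ⟨s, hs, t, ht, hne, hmax, hF1, htot1⟩ := step_total hstep
  refine ⟨s, hs, t, ht, hne, hmax, ?_⟩
  have hwG : merge s t ∉ (F.erase s).erase t := by
    intro hwG
    have hw1 : merge s t ∈ F.erase s := Finset.mem_of_mem_erase hwG
    have hwF : merge s t ∈ F := Finset.mem_of_mem_erase hw1
    have hws : merge s t ≠ s := (Finset.mem_erase.mp hw1).1
    exact hws (hff s hs _ hwF (prefix_merge s t).isInfix).symm
  have hcardG : ((F.erase s).erase t).card + 2 = F.card := by
    have ht' : t ∈ F.erase s := Finset.mem_erase.mpr ⟨hne.symm, ht⟩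
    have e1 := Finset.card_erase_of_mem ht'
    have e2 := Finset.card_erase_of_mem hs
    omega
  rcases hrun1.cases_head with h | ⟨F2, hstep2, hrun2⟩
  · exfalso
    have hc : (insert (merge s t) ((F.erase s).erase t)).card = 1 := by
      rw [← hF1, h]; simp
    rw [Finset.card_insert_of_notMem hwG] at hc
    omega
  obtain ⟨a, ha, b, hb, hab, hmax2, hF2, htot2⟩ := step_total hstep2
  have hT := run_total hrun2
  rw [total_singleton] at hT
  refine ⟨ov a b, by omega, ?_⟩
  intro p hp q hq hpq hps hqt hnts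
  have hmemG : ∀ x ∈ F, x ≠ s → x ≠ t → x ∈ (F.erase s).erase t := fun x hx h1 h2 =>
    Finset.mem_erase.mpr ⟨h2, Finset.mem_erase.mpr ⟨h1, hx⟩⟩
  have hwF1 : merge s t ∈ F1 := by rw [hF1]; exact Finset.mem_insert_self _ _
  have hGF1 : ∀ x ∈ (F.erase s).erase t, x ∈ F1 := fun x hx => by
    rw [hF1]; exact Finset.mem_insert_of_mem hx
  have hGw : ∀ x ∈ (F.erase s).erase t, x ≠ merge s t := fun x hx h => hwG (h ▸ hx)
  by_cases hpt : p = t
  · subst hpt
    have hqs : q ≠ s := fun h => hnts ⟨rfl, h⟩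
    have hqG := hmemG q hq hqs hqt
    calc ov p q ≤ ov (merge s p) q := ov_merge_right_ge s p q
      _ ≤ ov a b := hmax2 _ hwF1 q (hGF1 q hqG) (hGw q hqG).symm
  · have hpG := hmemG p hp hps hpt
    by_cases hqs : q = s
    · subst hqs
      calc ov p q ≤ ov p (merge q t) := ov_merge_left_ge q t p
        _ ≤ ov a b := hmax2 p (hGF1 p hpG) _ hwF1 (hGw p hpG)
    · have hqG := hmemG q hq hqs hqt
      exact hmax2 p (hGF1 p hpG) q (hGF1 q hqG) hpq

lemma ov_lt_of_not_infix {s t : List α} (hst : ¬ s <:+: t) (hts : ¬ t <:+: s) :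
    ov s t + 1 ≤ s.length ∧ ov s t + 1 ≤ t.length := by
  have h := ov_spec s t
  have h1 := ov_le_left s t
  have h2 := ov_le_right s t
  constructor
  · by_contra hcon
    have e : ov s t = s.length := by omega
    apply hst
    rw [e] at h
    simp only [Nat.sub_self, List.drop_zero] at h
    have hp : s <+: t := by
      rw [List.prefix_iff_eq_take]; exact h
    exact hp.isInfix
  · by_contra hcon
    have e : ov s t = t.length := by omega
    apply hts
    rw [e] at h
    simp only [List.take_length] at h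
    rw [← h]
    exact (List.drop_suffix _ _).isInfix

end Vale.Agent.Lib.P333
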