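import Vale.Agent.Lib.P333.Greedy

namespace Vale.Agent.Lib.P333

variable {α : Type*} [DecidableEq α]

lemma discard_subset (S : Finset (List α)) : discard S ⊆ S := Finset.filter_subset _ _

lemma discard_factorFree (S : Finset (List α)) : FactorFree (discard S) := by
  intro s hs t ht hst
  exact (Finset.mem_filter.mp hs).2 t (discard_subset S ht) hst

lemma step_card {F F' : Finset (List α)} (h : GreedyStep F F') : 2 ≤ F.card := by
  obtain ⟨s, hs, t, ht, hne, -, -⟩ := h
  exact Finset.one_lt_card.mpr ⟨s, hs, t, ht, hne⟩

/-- Core inequality: greedy is within a factor two of every common superstring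
for factor-free families of at most four strings. -/
theorem greedy_core (F : Finset (List α)) (hff : FactorFree F) (hcard : F.card ≤ 4)
    (T : List α) (hT : Relation.ReflTransGen GreedyStep F {T}) (U : List α)
    (hU : ∀ s ∈ F, s <:+: U) : T.length ≤ 2 * U.length := by
  obtain ⟨l, hnd, hmem, hbound⟩ := chain_bound U F hff hU
  have hlen : l.length = F.card := by
    rw [← List.toFinset_card_of_nodup hnd]
    congr 1; ext x; simp [hmem]
  have htot : (l.map List.length).sum = total F := by
    unfold total
    rw [← List.sum_toFinset _ hnd]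
    congr 1; ext x; simp [hmem]
  have hov : ∀ p ∈ F, ∀ q ∈ F, p ≠ q → ov p q + 1 ≤ p.length ∧ ov p q + 1 ≤ q.length :=
    fun p hp q hq hpq => ov_lt_of_not_infix (fun h => hpq (hff p hp q hq h))
      (fun h => hpq (hff q hq p hp h).symm)
  match l, hnd, hmem, hbound, hlen, htot with
  | [], _, _, _, hlen, _ =>
    exfalso
    rcases hT.cases_head with h | ⟨F1, hstep, -⟩
    · rw [h] at hlen; simp at hlen
    · have := step_card hstep
      simp at hlen; omega
  | [x], _, hmem, _, hlen, _ =>
    rcases hT.cases_head with h | ⟨F1, hstep, -⟩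
    · have hx : x ∈ F := (hmem x).mp (by simp)
      rw [h] at hx
      have hxT : x = T := by simpa using hx
      have := (hU x ((hmem x).mp (by simp))).length_le
      rw [hxT] at this
      omega
    · have := step_card hstep
      simp at hlen; omega
  | [y, x], hnd, hmem, hbound, hlen, htot =>
    have hxF : x ∈ F := (hmem x).mp (by simp)
    have hyF : y ∈ F := (hmem y).mp (by simp)
    have hxy : x ≠ y := by
      intro h; subst h; simp at hnd
    obtain ⟨s, hs, t, ht, hne, hmax, hle⟩ := one_step (by simp at hlen; omega) hT
    have h1 := hmax x hxF y hyF hxy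
    simp only [List.map_cons, List.map_nil, List.sum_cons, List.sum_nil, chainOv] at hbound htot
    omega
  | [z, y, x], hnd, hmem, hbound, hlen, htot =>
    have hxF : x ∈ F := (hmem x).mp (by simp)
    have hyF : y ∈ F := (hmem y).mp (by simp)
    have hzF : z ∈ F := (hmem z).mp (by simp)
    have hxy : x ≠ y := by
      intro h; subst h; simp at hnd
    have hyz : y ≠ z := by
      intro h; subst h; simp at hnd
    obtain ⟨s, hs, t, ht, hne, hmax, hle⟩ := one_step (by simp at hlen; omega) hT
    have h1 := hmax x hxF y hyF hxy
    have h2 := hmax y hyF z hzF hyz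
    have h3 := hov x hxF y hyF hxy
    have h4 := hov y hyF z hzF hyz
    simp only [List.map_cons, List.map_nil, List.sum_cons, List.sum_nil, chainOv] at hbound htot
    omega
  | [d, c, b, a], hnd, hmem, hbound, hlen, htot =>
    have haF : a ∈ F := (hmem a).mp (by simp)
    have hbF : b ∈ F := (hmem b).mp (by simp)
    have hcF : c ∈ F := (hmem c).mp (by simp)
    have hdF : d ∈ F := (hmem d).mp (by simp)
    have hab : a ≠ b := by
      intro h; subst h; simp at hnd
    have hac : a ≠ c := by
      intro h; subst h; simp at hnd
    have had : a ≠ d := by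
      intro h; subst h; simp at hnd
    have hbc : b ≠ c := by
      intro h; subst h; simp at hnd
    have hbd : b ≠ d := by
      intro h; subst h; simp at hnd
    have hcd : c ≠ d := by
      intro h; subst h; simp at hnd
    have hba := hab.symm
    have hca := hac.symm
    have hda := had.symm
    have hcb := hbc.symm
    have hdb := hbd.symm
    have hdc := hcd.symm
    obtain ⟨s, hs, t, ht, hne, hmax, g, hle, hvalid⟩ :=
      two_steps hff (by simp at hlen; omega) hT
    have m1 := hmax a haF b hbF hab
    have m2 := hmax b hbF c hcF hbc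
    have m3 := hmax c hcF d hdF hcd
    have o1 := hov a haF b hbF hab
    have o2 := hov b hbF c hcF hbc
    have o3 := hov c hcF d hdF hcd
    simp only [List.map_cons, List.map_nil, List.sum_cons, List.sum_nil, chainOv] at hbound htot
    have hs' : d = s ∨ c = s ∨ b = s ∨ a = s := by
      have := (hmem s).mpr hs
      simp only [List.mem_cons, List.not_mem_nil, or_false] at this
      rcases this with h | h | h | h
      · exact Or.inl h.symm
      · exact Or.inr (Or.inl h.symm)
      · exact Or.inr (Or.inr (Or.inl h.symm))
      · exact Or.inr (Or.inr (Or.inr h.symm))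
    have ht' : d = t ∨ c = t ∨ b = t ∨ a = t := by
      have := (hmem t).mpr ht
      simp only [List.mem_cons, List.not_mem_nil, or_false] at this
      rcases this with h | h | h | h
      · exact Or.inl h.symm
      · exact Or.inr (Or.inl h.symm)
      · exact Or.inr (Or.inr (Or.inl h.symm))
      · exact Or.inr (Or.inr (Or.inr h.symm))
    rcases hs' with rfl | rfl | rfl | rfl <;> rcases ht' with rfl | rfl | rfl | rfl <;>
    first
      | exact absurd rfl hne
      | (have v := hvalid a haF b hbF hab (by assumption) (by assumption) (by tauto); omega)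
      | (have v := hvalid b hbF c hcF hbc (by assumption) (by assumption) (by tauto); omega)
      | (have v := hvalid c hcF d hdF hcd (by assumption) (by assumption) (by tauto); omega)
      | (have v := hvalid a haF d hdF had (by assumption) (by assumption) (by tauto)
         have mg := monge c b a d (hmax c hcF d hdF hcd) (hmax a haF b hbF hab)
         omega)
  | (_ :: _ :: _ :: _ :: _ :: _), _, _, _, hlen, _ =>
    exfalso
    simp at hlen; omega

end Vale.Agent.Lib.P333

namespace Vale.Agent.Lib.P333

variable {α : Type*} [DecidableEq α]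

/-- Every string of `F` is a substring of some string of `F'`. -/
def Covers (F F' : Finset (List α)) : Prop := ∀ s ∈ F, ∃ t ∈ F', s <:+: t

lemma Covers.trans {F G H : Finset (List α)} (h1 : Covers F G) (h2 : Covers G H) :
    Covers F H := by
  intro s hs
  obtain ⟨t, ht, hst⟩ := h1 s hs
  obtain ⟨u, hu, htu⟩ := h2 t ht
  exact ⟨u, hu, hst.trans htu⟩

lemma step_covers {F F' : Finset (List α)} (h : GreedyStep F F') : Covers F F' := by
  obtain ⟨s, hs, t, ht, hne, -, rfl⟩ := h
  intro x hx
  by_cases hxs : x = s
  · subst hxs
    exact ⟨merge x t, Finset.mem_insert_self _ _, (prefix_merge x t).isInfix⟩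
  by_cases hxt : x = t
  · subst hxt
    exact ⟨merge s x, Finset.mem_insert_self _ _, (suffix_merge s x).isInfix⟩
  exact ⟨x, Finset.mem_insert_of_mem
    (Finset.mem_erase.mpr ⟨hxt, Finset.mem_erase.mpr ⟨hxs, hx⟩⟩), List.infix_refl x⟩

lemma run_covers {F F' : Finset (List α)} (h : Relation.ReflTransGen GreedyStep F F') :
    Covers F F' := by
  induction h with
  | refl => exact fun s hs => ⟨s, hs, List.infix_refl s⟩
  | tail _ hstep ih => exact ih.trans (step_covers hstep)

lemma discard_covers (S : Finset (List α)) : Covers S (discard S) := by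
  intro s hs
  obtain ⟨t, ht, hmax⟩ := Finset.exists_max_image (S.filter (fun t => s <:+: t)) List.length
    ⟨s, Finset.mem_filter.mpr ⟨hs, List.infix_refl s⟩⟩
  rw [Finset.mem_filter] at ht
  refine ⟨t, Finset.mem_filter.mpr ⟨ht.1, fun t' ht' htt' => ?_⟩, ht.2⟩
  have := hmax t' (Finset.mem_filter.mpr ⟨ht', ht.2.trans htt'⟩)
  exact htt'.eq_of_length_le this

/-- Every greedy output is a common superstring of the input family. -/
theorem greedy_isCommonSuperstring (S : Finset (List α)) (T : List α)
    (hT : GreedyOutput S T) : IsCommonSuperstring S T := by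
  intro s hs
  obtain ⟨t, ht, hst⟩ := ((discard_covers S).trans (run_covers hT)) s hs
  rw [Finset.mem_singleton] at ht
  exact ht ▸ hst

lemma exists_run (n : ℕ) : ∀ F : Finset (List α), F.card = n → F.Nonempty →
    ∃ T, Relation.ReflTransGen GreedyStep F {T} := by
  induction n using Nat.strong_induction_on with
  | _ n ih =>
    intro F hn hne
    by_cases h1 : F.card = 1
    · obtain ⟨T, hT⟩ := Finset.card_eq_one.mp h1
      exact ⟨T, hT ▸ Relation.ReflTransGen.refl⟩
    have h2 : 1 < F.card := by
      have := Finset.card_pos.mpr hne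
      omega
    obtain ⟨a, ha, b, hb, hab⟩ := Finset.one_lt_card.mp h2
    have hP : F.offDiag.Nonempty := ⟨(a, b), Finset.mem_offDiag.mpr ⟨ha, hb, hab⟩⟩
    obtain ⟨⟨s, t⟩, hst, hmax⟩ := Finset.exists_max_image F.offDiag (fun pq => ov pq.1 pq.2) hP
    rw [Finset.mem_offDiag] at hst
    have hs : s ∈ F := hst.1
    have ht : t ∈ F := hst.2.1
    have hne' : s ≠ t := hst.2.2
    have hstep : GreedyStep F (insert (merge s t) ((F.erase s).erase t)) :=
      ⟨s, hs, t, ht, hne', fun p hp q hq hpq =>
        hmax (p, q) (Finset.mem_offDiag.mpr ⟨hp, hq, hpq⟩), rfl⟩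
    have hcard : (insert (merge s t) ((F.erase s).erase t)).card < n := by
      have ht' : t ∈ F.erase s := Finset.mem_erase.mpr ⟨hne'.symm, ht⟩
      have e1 := Finset.card_erase_of_mem ht'
      have e2 := Finset.card_erase_of_mem hs
      have e3 := Finset.card_insert_le (merge s t) ((F.erase s).erase t)
      omega
    obtain ⟨T, hT⟩ := ih _ hcard _ rfl (Finset.insert_nonempty _ _)
    exact ⟨T, Relation.ReflTransGen.head hstep hT⟩

/-- The greedy algorithm produces an output on every nonempty family. -/
theorem exists_greedyOutput (S : Finset (List α)) (hS : S.Nonempty) :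
    ∃ T, GreedyOutput S T := by
  obtain ⟨s, hs⟩ := hS
  obtain ⟨t, ht, -⟩ := discard_covers S s hs
  exact exists_run _ _ rfl ⟨t, ht⟩

/-- The greedy conjecture for families of at most four strings. -/
theorem greedy_four (S : Finset (List α)) (hS : S.card ≤ 4) (T : List α)
    (hT : GreedyOutput S T) (U : List α) (hU : IsCommonSuperstring S U) :
    T.length ≤ 2 * U.length :=
  greedy_core (discard S) (discard_factorFree S)
    ((Finset.card_le_card (discard_subset S)).trans hS) T hT U
    (fun s hs => hU s (discard_subset S hs))

end Vale.Agent.Lib.P333
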