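import Vale.Agent.Lib.P333.Five
import Vale.Agent.Lib.P333.Core6

namespace Vale.Agent.Lib.P333

variable {α : Type*} [DecidableEq α]

/-- Core inequality for factor-free families of exactly six strings. -/
theorem greedy_core6 (F : Finset (List α)) (hff : FactorFree F) (hcard : F.card = 6)
    (T : List α) (hT : Relation.ReflTransGen GreedyStep F {T}) (U : List α)
    (hU : ∀ s ∈ F, s <:+: U) : T.length ≤ 2 * U.length := by
  obtain ⟨l, hnd, hmem, hbound⟩ := chain_bound U F hff hU
  have hlen : l.length = 6 := by
    rw [← hcard, ← List.toFinset_card_of_nodup hnd]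
    congr 1; ext x; simp [hmem]
  match l, hnd, hmem, hbound, hlen with
  | [x5, x4, x3, x2, x1, x0], hnd, hmem, hbound, _ =>
    let a : Fin 6 → List α := fun i => [x0, x1, x2, x3, x4, x5].get i
    have hnd' : [x0, x1, x2, x3, x4, x5].Nodup := List.nodup_reverse.mpr hnd
    have hF : Finset.univ.image a = F := by
      ext s
      rw [← hmem, Finset.mem_image]
      simp only [Finset.mem_univ, true_and]
      rw [show (∃ i, a i = s) ↔ s ∈ [x0, x1, x2, x3, x4, x5] from
        (List.mem_iff_get (l := [x0, x1, x2, x3, x4, x5]) (a := s)).symm]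
      simp only [List.mem_cons, List.not_mem_nil, or_false]
      tauto
    have hinj : ∀ i j, a i = a j → i = j :=
      fun i j h => List.nodup_iff_injective_get.mp hnd' h
    have ha : ∀ i j, a i <:+: a j → i = j := by
      intro i j h
      have hi : a i ∈ F := by rw [← hF]; exact Finset.mem_image_of_mem _ (Finset.mem_univ _)
      have hj : a j ∈ F := by rw [← hF]; exact Finset.mem_image_of_mem _ (Finset.mem_univ _)
      exact hinj i j (hff _ hi _ hj h)
    rw [← hF] at hT
    obtain ⟨E, hE, hsum, hElen⟩ := sim_init a ha hT
    have hc := core6 (fun i j => ov (a i) (a j)) (fun i => (a i).length)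
      (fun i j hij => ov_lt_of_not_infix (fun h => hij (ha _ _ h)) (fun h => hij (ha _ _ h).symm))
      (fun i j k => ov_triple (a i) (a j) (a k))
      (fun i j k l => monge (a i) (a j) (a k) (a l)) E hE (by simpa using hElen)
    rw [Fin.sum_univ_six] at hsum
    simp only [List.map_cons, List.map_nil, List.sum_cons, List.sum_nil, chainOv] at hbound
    have e0 : a 0 = x0 := rfl
    have e1 : a 1 = x1 := rfl
    have e2 : a 2 = x2 := rfl
    have e3 : a 3 = x3 := rfl
    have e4 : a 4 = x4 := rfl
    have e5 : a 5 = x5 := rfl
    simp only [e0, e1, e2, e3, e4, e5] at hc hsum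
    omega

/-- Core inequality for factor-free families of at most six strings. -/
theorem greedy_core_le6 (F : Finset (List α)) (hff : FactorFree F) (hcard : F.card ≤ 6)
    (T : List α) (hT : Relation.ReflTransGen GreedyStep F {T}) (U : List α)
    (hU : ∀ s ∈ F, s <:+: U) : T.length ≤ 2 * U.length := by
  rcases Nat.lt_or_ge F.card 6 with h | h
  · exact greedy_core_le5 F hff (by omega) T hT U hU
  · exact greedy_core6 F hff (by omega) T hT U hU

/-- The greedy conjecture for families of at most six strings. -/
theorem greedy_six (S : Finset (List α)) (hS : S.card ≤ 6) (T : List α)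
    (hT : GreedyOutput S T) (U : List α) (hU : IsCommonSuperstring S U) :
    T.length ≤ 2 * U.length :=
  greedy_core_le6 (discard S) (discard_factorFree S)
    ((Finset.card_le_card (discard_subset S)).trans hS) T hT U
    (fun s hs => hU s (discard_subset S hs))

end Vale.Agent.Lib.P333
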